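import Vale.Agent.Lib.P371W.Regular
import Vale.Agent.Lib.P371.Defs

/-!
Running averages: contraction in `L²`, and derivative of the average of an `H¹` function.
-/

open MeasureTheory Set Filter Topology
open scoped Real ComplexConjugate

namespace Vale.Agent.Lib.P371W

open Vale.Agent.Lib.P371

/-- Fubini for a running integral. -/
theorem running_integral {G : ℝ → ℝ} (hG : Integrable G) {h : ℝ} (hh : 0 < h) :
    Integrable (fun x => ∫ y in x..(x + h), G y) ∧
      ∫ x, (∫ y in x..(x + h), G y) = h * ∫ x, G x := by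
  have hrw : ∀ x, (∫ y in x..(x + h), G y) = ∫ s in Ioc 0 h, G (x + s) := by
    intro x
    have h1 := intervalIntegral.integral_comp_add_left (a := 0) (b := h) G x
    rw [add_zero] at h1
    rw [← h1, intervalIntegral.integral_of_le hh.le]
  have hmeas : AEStronglyMeasurable (fun p : ℝ × ℝ => G (p.1 + p.2))
      ((volume : Measure ℝ).prod (volume.restrict (Ioc 0 h))) := by
    have h1 : AEStronglyMeasurable (fun p : ℝ × ℝ => G (p.1 + p.2))
        ((volume : Measure ℝ).prod volume) :=
      hG.aestronglyMeasurable.comp_quasiMeasurePreserving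
        (quasiMeasurePreserving_add volume volume)
    exact h1.mono_measure (Measure.prod_mono le_rfl Measure.restrict_le_self)
  have hshift : ∀ s, ∫ x, ‖G (x + s)‖ = ∫ x, ‖G x‖ := fun s =>
    integral_add_right_eq_self (fun x => ‖G x‖) s
  have hint : Integrable (fun p : ℝ × ℝ => G (p.1 + p.2))
      ((volume : Measure ℝ).prod (volume.restrict (Ioc 0 h))) := by
    rw [integrable_prod_iff' hmeas]
    refine ⟨Eventually.of_forall fun s => hG.comp_add_right s, ?_⟩
    simp only [hshift]
    exact integrable_const _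
  constructor
  · simp_rw [hrw]
    exact hint.integral_prod_left
  · simp_rw [hrw]
    have h1 := integral_integral_swap (f := fun x s => G (x + s)) (μ := volume)
      (ν := volume.restrict (Ioc 0 h)) hint
    rw [h1]
    have h2 : ∀ s, ∫ x, G (x + s) = ∫ x, G x := fun s => integral_add_right_eq_self G s
    simp only [h2]
    rw [setIntegral_const]
    simp [hh.le, smul_eq_mul]

/-- Cauchy-Schwarz on a segment. -/
theorem sq_integral_le {a : ℝ → ℝ} {x h : ℝ} (hh : 0 < h)
    (ha : IntervalIntegrable a volume x (x + h))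
    (ha2 : IntervalIntegrable (fun y => a y ^ 2) volume x (x + h)) :
    (∫ y in x..(x + h), a y) ^ 2 ≤ h * ∫ y in x..(x + h), a y ^ 2 := by
  set m := ∫ y in x..(x + h), a y with hm
  set q := ∫ y in x..(x + h), a y ^ 2 with hq
  have hle : x ≤ x + h := by linarith
  have hexp : ∀ t : ℝ, 0 ≤ q - 2 * t * m + t ^ 2 * h := by
    intro t
    have h1 : 0 ≤ ∫ y in x..(x + h), (a y - t) ^ 2 :=
      intervalIntegral.integral_nonneg hle fun y _ => sq_nonneg _
    have h2 : (fun y => (a y - t) ^ 2) = fun y => a y ^ 2 - 2 * t * a y + t ^ 2 := by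
      funext y; ring
    rw [h2, intervalIntegral.integral_add (ha2.sub (ha.const_mul _)) intervalIntegrable_const,
      intervalIntegral.integral_sub ha2 (ha.const_mul _), intervalIntegral.integral_const_mul,
      intervalIntegral.integral_const] at h1
    simpa [smul_eq_mul, mul_comm] using h1
  have h3 := hexp (m / h)
  have h4 : q - 2 * (m / h) * m + (m / h) ^ 2 * h = q - m ^ 2 / h := by
    field_simp
    ring
  rw [h4] at h3
  have h5 : m ^ 2 / h ≤ q := by linarith
  rw [div_le_iff₀ hh] at h5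
  linarith

/-- The running average. -/
noncomputable def avg (h : ℝ) (g : ℝ → ℂ) (x : ℝ) : ℂ :=
  ((h⁻¹ : ℝ) : ℂ) * ∫ y in x..(x + h), g y

theorem memLp_intervalIntegrable {g : ℝ → ℂ} (hg : MemLp g 2 volume) (a b : ℝ) :
    IntervalIntegrable g volume a b :=
  ((hg.locallyIntegrable (by norm_num)).integrableOn_isCompact isCompact_uIcc).intervalIntegrable

theorem integrable_norm_sq_of_memLp {g : ℝ → ℂ} (hg : MemLp g 2 volume) :
    Integrable fun x => ‖g x‖ ^ 2 :=
  (memLp_two_iff_integrable_sq_norm hg.aestronglyMeasurable).mp hg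

theorem norm_avg_sq_le {g : ℝ → ℂ} (hg : MemLp g 2 volume) {h : ℝ} (hh : 0 < h) (x : ℝ) :
    ‖avg h g x‖ ^ 2 ≤ h⁻¹ * ∫ y in x..(x + h), ‖g y‖ ^ 2 := by
  have hi := memLp_intervalIntegrable hg x (x + h)
  have hle : x ≤ x + h := by linarith
  have h1 : ‖∫ y in x..(x + h), g y‖ ≤ ∫ y in x..(x + h), ‖g y‖ :=
    intervalIntegral.norm_integral_le_integral_norm hle
  have h2 := sq_integral_le (a := fun y => ‖g y‖) hh hi.norm
    ((integrable_norm_sq_of_memLp hg).intervalIntegrable)
  have h3 : 0 ≤ ∫ y in x..(x + h), ‖g y‖ :=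
    intervalIntegral.integral_nonneg hle fun y _ => norm_nonneg _
  have h4 : ‖∫ y in x..(x + h), g y‖ ^ 2 ≤ h * ∫ y in x..(x + h), ‖g y‖ ^ 2 :=
    (pow_le_pow_left₀ (norm_nonneg _) h1 2).trans h2
  unfold avg
  rw [norm_mul, mul_pow, Complex.norm_real, Real.norm_of_nonneg (inv_pos.mpr hh).le]
  have h5 : 0 < h⁻¹ := inv_pos.mpr hh
  calc (h⁻¹) ^ 2 * ‖∫ y in x..(x + h), g y‖ ^ 2
      ≤ (h⁻¹) ^ 2 * (h * ∫ y in x..(x + h), ‖g y‖ ^ 2) := by
        exact mul_le_mul_of_nonneg_left h4 (by positivity)
    _ = h⁻¹ * ∫ y in x..(x + h), ‖g y‖ ^ 2 := by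
        field_simp

theorem continuous_avg {g : ℝ → ℂ} (hg : MemLp g 2 volume) (h : ℝ) : Continuous (avg h g) := by
  unfold avg
  refine continuous_const.mul ?_
  have hi : ∀ a b, IntervalIntegrable g volume a b := memLp_intervalIntegrable hg
  have hp : Continuous fun x => ∫ y in (0 : ℝ)..x, g y :=
    intervalIntegral.continuous_primitive hi 0
  have heq : (fun x => ∫ y in x..(x + h), g y) =
      fun x => (∫ y in (0 : ℝ)..(x + h), g y) - ∫ y in (0 : ℝ)..x, g y := by
    funext x
    rw [intervalIntegral.integral_interval_sub_left (hi _ _) (hi _ _)]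
  rw [heq]
  exact (hp.comp (continuous_id.add continuous_const)).sub hp

/-- `L²` contraction of the running average. -/
theorem avg_contraction {g : ℝ → ℂ} (hg : MemLp g 2 volume) {h : ℝ} (hh : 0 < h) :
    Integrable (fun x => ‖avg h g x‖ ^ 2) ∧ ∫ x, ‖avg h g x‖ ^ 2 ≤ ∫ x, ‖g x‖ ^ 2 := by
  have hG := integrable_norm_sq_of_memLp hg
  obtain ⟨h1, h2⟩ := running_integral hG hh
  have hdom : Integrable fun x => h⁻¹ * ∫ y in x..(x + h), ‖g y‖ ^ 2 := h1.const_mul _
  have hint : Integrable fun x => ‖avg h g x‖ ^ 2 := by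
    refine hdom.mono' ((continuous_avg hg h).norm.pow 2).aestronglyMeasurable
      (Eventually.of_forall fun x => ?_)
    rw [Real.norm_of_nonneg (sq_nonneg _)]
    exact norm_avg_sq_le hg hh x
  refine ⟨hint, ?_⟩
  have h3 := integral_mono hint hdom (fun x => norm_avg_sq_le hg hh x)
  rw [integral_const_mul, h2, ← mul_assoc, inv_mul_cancel₀ hh.ne', one_mul] at h3
  exact h3

/-- An `H¹` function is continuous. -/
theorem continuous_of_isH1 {u u' : ℝ → ℂ} (hu : IsH1 u u') : Continuous u := by
  have hi : ∀ a b, IntervalIntegrable u' volume a b := memLp_intervalIntegrable hu.memLp_deriv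
  have hp : Continuous fun x => ∫ y in (0 : ℝ)..x, u' y :=
    intervalIntegral.continuous_primitive hi 0
  have heq : u = fun x => (∫ y in (0 : ℝ)..x, u' y) + u 0 := by
    funext x
    rw [hu.ftc]
    ring
  rw [heq]
  exact hp.add continuous_const

/-- The derivative of the average of an `H¹` function. -/
theorem hasDerivAt_avg {u u' : ℝ → ℂ} (hu : IsH1 u u') {h : ℝ} (x : ℝ) :
    HasDerivAt (avg h u) (avg h u' x) x := by
  have hc := continuous_of_isH1 hu
  have hi : ∀ a b, IntervalIntegrable u volume a b := fun a b => hc.intervalIntegrable a b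
  have hp : ∀ y, HasDerivAt (fun x => ∫ t in (0 : ℝ)..x, u t) (u y) y := fun y =>
    intervalIntegral.integral_hasDerivAt_right (hi _ _)
      (hc.stronglyMeasurableAtFilter _ _) hc.continuousAt
  have heq : avg h u = fun x => ((h⁻¹ : ℝ) : ℂ) *
      ((∫ t in (0 : ℝ)..(x + h), u t) - ∫ t in (0 : ℝ)..x, u t) := by
    funext x
    unfold avg
    rw [intervalIntegral.integral_interval_sub_left (hi _ _) (hi _ _)]
  have heq' : avg h u' x = ((h⁻¹ : ℝ) : ℂ) * (u (x + h) - u x) := by
    unfold avg
    rw [hu.ftc]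
  rw [heq, heq']
  have h1 : HasDerivAt (fun x => ∫ t in (0 : ℝ)..(x + h), u t) (u (x + h)) x := by
    simpa using (hp (x + h)).comp_add_const x h
  exact (h1.sub (hp x)).const_mul _

/-- The average of an `H¹` derivative is continuous. -/
theorem continuous_avg_deriv {u u' : ℝ → ℂ} (hu : IsH1 u u') (h : ℝ) : Continuous (avg h u') :=
  continuous_avg hu.memLp_deriv h

/-- Averages converge pointwise to a continuous function. -/
theorem tendsto_avg {u u' : ℝ → ℂ} (hu : IsH1 u u') (x : ℝ) :
    Tendsto (fun h : ℝ => avg h u x) (𝓝[>] 0) (𝓝 (u x)) := by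
  have hc := continuous_of_isH1 hu
  have hi : ∀ a b, IntervalIntegrable u volume a b := fun a b => hc.intervalIntegrable a b
  have hp : HasDerivAt (fun x => ∫ t in (0 : ℝ)..x, u t) (u x) x :=
    intervalIntegral.integral_hasDerivAt_right (hi _ _)
      (hc.stronglyMeasurableAtFilter _ _) hc.continuousAt
  have h1 := hp.tendsto_slope_zero_right
  refine h1.congr fun h => ?_
  unfold avg
  rw [intervalIntegral.integral_interval_sub_left (hi _ _) (hi _ _)]
  rw [Complex.real_smul]

end Vale.Agent.Lib.P371W
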