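import Mathlib

/-!
The window function `chi`, the integrals over the window and the overlap integral `D`.
-/

open MeasureTheory Set Filter Topology
open scoped Real

namespace Vale.Agent.Lib.P371W

/-- The characteristic function of the window `(-π/4, π/4)`. -/
noncomputable def chi (t : ℝ) : ℝ := (Ioo (-(π / 4)) (π / 4)).indicator (fun _ => (1 : ℝ)) t

/-- The function `cos² s` on `(-π/2, π/2)`, extended by `0`. -/
noncomputable def cut (s : ℝ) : ℝ := (Ioo (-(π / 2)) (π / 2)).indicator (fun s => Real.cos s ^ 2) s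

theorem measurable_chi : Measurable chi :=
  measurable_const.indicator measurableSet_Ioo

theorem measurable_cut : Measurable cut :=
  (Real.continuous_cos.pow 2).measurable.indicator measurableSet_Ioo

theorem chi_nonneg (t : ℝ) : 0 ≤ chi t := by
  unfold chi
  exact indicator_nonneg (fun _ _ => zero_le_one) t

theorem chi_le_one (t : ℝ) : chi t ≤ 1 := by
  unfold chi
  exact indicator_le_self' (fun _ _ => zero_le_one) t

theorem chi_eq_one {t : ℝ} (h : |t| < π / 4) : chi t = 1 := by
  unfold chi
  rw [indicator_of_mem]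
  exact abs_lt.mp h

theorem chi_eq_zero {t : ℝ} (h : ¬ |t| < π / 4) : chi t = 0 := by
  unfold chi
  rw [indicator_of_notMem]
  intro hmem
  exact h (abs_lt.mpr hmem)

theorem cut_nonneg (s : ℝ) : 0 ≤ cut s := by
  unfold cut
  exact indicator_nonneg (fun _ _ => sq_nonneg _) s

theorem cut_le_one (s : ℝ) : cut s ≤ 1 := by
  unfold cut
  by_cases h : s ∈ Ioo (-(π / 2)) (π / 2)
  · rw [indicator_of_mem h]; exact Real.cos_sq_le_one s
  · rw [indicator_of_notMem h]; exact zero_le_one

theorem chi_mul_eq_indicator (G : ℝ → ℝ) (t : ℝ) :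
    chi t * G t = (Ioo (-(π / 4)) (π / 4)).indicator G t := by
  unfold chi
  by_cases h : t ∈ Ioo (-(π / 4)) (π / 4)
  · rw [indicator_of_mem h, indicator_of_mem h, one_mul]
  · rw [indicator_of_notMem h, indicator_of_notMem h, zero_mul]

theorem integral_chi_mul (G : ℝ → ℝ) :
    ∫ t, chi t * G t = ∫ t in (-(π / 4))..(π / 4), G t := by
  have hpi := Real.pi_pos
  simp_rw [chi_mul_eq_indicator]
  rw [integral_indicator measurableSet_Ioo, intervalIntegral.integral_of_le (by linarith),
    integral_Ioc_eq_integral_Ioo]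

theorem integrable_chi_mul {G : ℝ → ℝ} (hG : Continuous G) :
    Integrable fun t => chi t * G t := by
  have hpi := Real.pi_pos
  simp_rw [chi_mul_eq_indicator]
  rw [integrable_indicator_iff measurableSet_Ioo]
  exact (hG.integrableOn_Icc (a := -(π / 4)) (b := π / 4)).mono_set Ioo_subset_Icc_self

theorem integral_chi_shift (G : ℝ → ℝ) (a : ℝ) :
    ∫ τ, chi (a - τ) * G (a - τ) = ∫ t in (-(π / 4))..(π / 4), G t := by
  rw [← integral_chi_mul]
  exact integral_sub_left_eq_self (fun t => chi t * G t) volume a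

theorem integrable_chi_shift {G : ℝ → ℝ} (hG : Continuous G) (a : ℝ) :
    Integrable fun τ => chi (a - τ) * G (a - τ) :=
  (integrable_chi_mul hG).comp_sub_left a

/-- The three trigonometric integrals on the window. -/
theorem integral_cos_sq_window : ∫ t in (-(π / 4))..(π / 4), Real.cos (2 * t) ^ 2 = π / 4 := by
  have hd : ∀ t ∈ uIcc (-(π / 4)) (π / 4),
      HasDerivAt (fun t => t / 2 + Real.sin (4 * t) / 8) (Real.cos (2 * t) ^ 2) t := by
    intro t _
    have h1 : HasDerivAt (fun t : ℝ => 4 * t) 4 t := by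
      simpa using (hasDerivAt_id t).const_mul 4
    have h2 := ((hasDerivAt_id t).div_const 2).add (h1.sin.div_const 8)
    refine h2.congr_deriv ?_
    have h3 : Real.cos (4 * t) = 2 * Real.cos (2 * t) ^ 2 - 1 := by
      have := Real.cos_two_mul (2 * t)
      rw [← this]; ring_nf
    rw [h3]; ring
  rw [intervalIntegral.integral_eq_sub_of_hasDerivAt hd
    ((by fun_prop : Continuous fun t => Real.cos (2 * t) ^ 2).intervalIntegrable _ _)]
  have h4 : 4 * (π / 4) = π := by ring
  have h5 : 4 * (-(π / 4)) = -π := by ring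
  rw [h4, h5, Real.sin_pi, Real.sin_neg, Real.sin_pi]
  ring

theorem integral_sin_sq_window : ∫ t in (-(π / 4))..(π / 4), Real.sin (2 * t) ^ 2 = π / 4 := by
  have hd : ∀ t ∈ uIcc (-(π / 4)) (π / 4),
      HasDerivAt (fun t => t / 2 - Real.sin (4 * t) / 8) (Real.sin (2 * t) ^ 2) t := by
    intro t _
    have h1 : HasDerivAt (fun t : ℝ => 4 * t) 4 t := by
      simpa using (hasDerivAt_id t).const_mul 4
    have h2 := ((hasDerivAt_id t).div_const 2).sub (h1.sin.div_const 8)
    refine h2.congr_deriv ?_
    have h3 : Real.cos (4 * t) = 1 - 2 * Real.sin (2 * t) ^ 2 := by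
      have h6 := Real.cos_two_mul (2 * t)
      have h7 := Real.sin_sq_add_cos_sq (2 * t)
      have h8 : 2 * (2 * t) = 4 * t := by ring
      rw [h8] at h6
      rw [h6]; nlinarith
    rw [h3]; ring
  rw [intervalIntegral.integral_eq_sub_of_hasDerivAt hd
    ((by fun_prop : Continuous fun t => Real.sin (2 * t) ^ 2).intervalIntegrable _ _)]
  have h4 : 4 * (π / 4) = π := by ring
  have h5 : 4 * (-(π / 4)) = -π := by ring
  rw [h4, h5, Real.sin_pi, Real.sin_neg, Real.sin_pi]
  ring

theorem integral_sin_cos_window :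
    ∫ t in (-(π / 4))..(π / 4), Real.sin (2 * t) * Real.cos (2 * t) = 0 := by
  have hd : ∀ t ∈ uIcc (-(π / 4)) (π / 4),
      HasDerivAt (fun t => Real.sin (2 * t) ^ 2 / 4) (Real.sin (2 * t) * Real.cos (2 * t)) t := by
    intro t _
    have h1 : HasDerivAt (fun t : ℝ => 2 * t) 2 t := by
      simpa using (hasDerivAt_id t).const_mul 2
    have h2 := (h1.sin.pow 2).div_const 4
    refine h2.congr_deriv ?_
    ring
  rw [intervalIntegral.integral_eq_sub_of_hasDerivAt hd
    ((by fun_prop : Continuous fun t => Real.sin (2 * t) * Real.cos (2 * t)).intervalIntegrable _ _)]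
  have h4 : 2 * (π / 4) = π / 2 := by ring
  have h5 : 2 * (-(π / 4)) = -(π / 2) := by ring
  rw [h4, h5, Real.sin_neg, Real.sin_pi_div_two]
  ring

theorem integral_cos_two_mul (a b : ℝ) :
    ∫ t in a..b, Real.cos (2 * t) = (Real.sin (2 * b) - Real.sin (2 * a)) / 2 := by
  have hd : ∀ t ∈ uIcc a b, HasDerivAt (fun t => Real.sin (2 * t) / 2) (Real.cos (2 * t)) t := by
    intro t _
    have h1 : HasDerivAt (fun t : ℝ => 2 * t) 2 t := by
      simpa using (hasDerivAt_id t).const_mul 2
    exact (h1.sin.div_const 2).congr_deriv (by ring)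
  rw [intervalIntegral.integral_eq_sub_of_hasDerivAt hd
    ((by fun_prop : Continuous fun t => Real.cos (2 * t)).intervalIntegrable _ _)]
  ring

/-- The overlap integral. -/
theorem overlap_eq (s : ℝ) :
    ∫ t, chi t * (chi (t - s) * Real.cos (2 * t)) = cut s := by
  have hpi := Real.pi_pos
  -- the integrand as an indicator
  have hind : ∀ t, chi t * (chi (t - s) * Real.cos (2 * t)) =
      (Ioo (max (-(π / 4)) (s - π / 4)) (min (π / 4) (s + π / 4))).indicator
        (fun t => Real.cos (2 * t)) t := by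
    intro t
    by_cases h : t ∈ Ioo (max (-(π / 4)) (s - π / 4)) (min (π / 4) (s + π / 4))
    · rw [indicator_of_mem h]
      have h1 := max_lt_iff.mp h.1
      have h2 := lt_min_iff.mp h.2
      rw [chi_eq_one (abs_lt.mpr ⟨h1.1, h2.1⟩),
        chi_eq_one (abs_lt.mpr ⟨by linarith [h1.2], by linarith [h2.2]⟩)]
      ring
    · rw [indicator_of_notMem h]
      by_cases h1 : |t| < π / 4
      · have h2 : ¬ |t - s| < π / 4 := by
          intro h3
          apply h
          have h4 := abs_lt.mp h1
          have h5 := abs_lt.mp h3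
          exact ⟨max_lt h4.1 (by linarith [h5.2]), lt_min h4.2 (by linarith [h5.1])⟩
        rw [chi_eq_zero h2]; ring
      · rw [chi_eq_zero h1]; ring
  simp_rw [hind]
  rw [integral_indicator measurableSet_Ioo]
  unfold cut
  by_cases hs : s ∈ Ioo (-(π / 2)) (π / 2)
  · rw [indicator_of_mem hs]
    have hlohi : max (-(π / 4)) (s - π / 4) ≤ min (π / 4) (s + π / 4) := by
      apply max_le <;> apply le_min <;> linarith [hs.1, hs.2]
    rw [← integral_Ioc_eq_integral_Ioo, ← intervalIntegral.integral_of_le hlohi,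
      integral_cos_two_mul]
    rcases le_total 0 s with h0 | h0
    · have h1 : max (-(π / 4)) (s - π / 4) = s - π / 4 := max_eq_right (by linarith)
      have h2 : min (π / 4) (s + π / 4) = π / 4 := min_eq_left (by linarith)
      rw [h1, h2]
      have h3 : 2 * (π / 4) = π / 2 := by ring
      have h4 : 2 * (s - π / 4) = 2 * s - π / 2 := by ring
      rw [h3, h4, Real.sin_pi_div_two, Real.sin_sub, Real.sin_pi_div_two, Real.cos_pi_div_two,
        Real.cos_two_mul]
      ring
    · have h1 : max (-(π / 4)) (s - π / 4) = -(π / 4) := max_eq_left (by linarith)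
      have h2 : min (π / 4) (s + π / 4) = s + π / 4 := min_eq_right (by linarith)
      rw [h1, h2]
      have h3 : 2 * (-(π / 4)) = -(π / 2) := by ring
      have h4 : 2 * (s + π / 4) = 2 * s + π / 2 := by ring
      rw [h3, h4, Real.sin_neg, Real.sin_pi_div_two, Real.sin_add, Real.sin_pi_div_two,
        Real.cos_pi_div_two, Real.cos_two_mul]
      ring
  · rw [indicator_of_notMem hs]
    have hemp : Ioo (max (-(π / 4)) (s - π / 4)) (min (π / 4) (s + π / 4)) = ∅ := by
      apply Ioo_eq_empty
      intro hlt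
      apply hs
      have h1 := lt_min_iff.mp (max_lt_iff.mp hlt).1
      have h2 := lt_min_iff.mp (max_lt_iff.mp hlt).2
      exact ⟨by linarith [h1.2], by linarith [h2.1]⟩
    rw [hemp]
    simp

end Vale.Agent.Lib.P371W
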