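import Vale.Agent.Lib.P371W.Window
import Vale.Agent.Lib.P371W.Chi

/-!
Integrating the window inequality over the centre `τ` of the window.
-/

open MeasureTheory Set Filter Topology Function
open scoped Real

namespace Vale.Agent.Lib.P371W

theorem tangent_bound {r M C : ℝ} (hr : 0 ≤ r) (hM : 0 < M) (hC : 0 < C) :
    3 / C ^ 2 * r ^ 4 - 2 / C ^ 3 * (M * r ^ 3) ≤ r ^ 6 / M ^ 2 := by
  have h1 : r ^ 6 / M ^ 2 - (3 / C ^ 2 * r ^ 4 - 2 / C ^ 3 * (M * r ^ 3)) =
      r ^ 3 * (r * C - M) ^ 2 * (r * C + 2 * M) / (M ^ 2 * C ^ 3) := by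
    field_simp
    ring
  have h2 : 0 ≤ r ^ 3 * (r * C - M) ^ 2 * (r * C + 2 * M) / (M ^ 2 * C ^ 3) := by positivity
  linarith

namespace WinData

variable {A A' s σ : ℝ → ℝ}

theorem int_A3_mul (h : WinData A A' s σ) {g : ℝ → ℝ} (hg : Continuous g) {B : ℝ}
    (hB : ∀ x, |g x| ≤ B) : Integrable fun x => A x ^ 3 * g x := by
  have hdom : Integrable fun x => A x ^ 3 * B := h.int3.mul_const B
  refine hdom.mono' ?_ ?_
  · exact ((h.contA.pow 3).mul hg).aestronglyMeasurable
  · refine Eventually.of_forall fun x => ?_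
    have hpos := h.hApos x
    rw [Real.norm_eq_abs, abs_mul, abs_of_pos (by positivity : 0 < A x ^ 3)]
    exact mul_le_mul_of_nonneg_left (hB x) (by positivity)

theorem win_mass_pos (h : WinData A A' s σ) {τ : ℝ} (hne : (win σ τ).Nonempty) :
    0 < ∫ x in win σ τ, A x := by
  obtain ⟨x₀, hx₀⟩ := hne
  rw [setIntegral_pos_iff_support_of_nonneg_ae]
  · have : Function.support A = univ := by
      ext x; simp [(h.hApos x).ne']
    rw [this, univ_inter]
    exact (h.isOpen_win τ).measure_pos _ ⟨x₀, hx₀⟩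
  · exact Eventually.of_forall fun x => (h.hApos x).le
  · exact h.int1.integrableOn

/-- The inequality for a fixed window, without denominators in the window mass. -/
theorem per_tau (h : WinData A A' s σ) (τ : ℝ) {P : ℝ → ℝ} (hPc : Continuous P)
    (hP : ∀ r, 0 ≤ r → r ≤ 1 → P (r ^ 3) ≤ r ^ 4) {C : ℝ} (hC : 0 < C) :
    π ^ 2 * (3 / C ^ 2 * (∫ x in win σ τ, A x ^ 3 * P (Real.cos (2 * (σ x - τ)))) -
        2 / C ^ 3 * ((∫ x in win σ τ, A x) * ∫ x in win σ τ, A x ^ 3 * Real.cos (2 * (σ x - τ)))) ≤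
      ∫ x in win σ τ, uD A A' s σ τ x ^ 2 / A x := by
  rcases (win σ τ).eq_empty_or_nonempty with hemp | hne
  · simp [hemp]
  have hMpos := h.win_mass_pos hne
  have hS := h.measurableSet_win τ
  have hw := h.window_ineq τ
  set M := ∫ x in win σ τ, A x with hM
  set X := ∫ x in win σ τ, A x * uF A σ τ x ^ 2 with hX
  set Y := ∫ x in win σ τ, uD A A' s σ τ x ^ 2 / A x with hY
  have hcosc : Continuous fun x => Real.cos (2 * (σ x - τ)) := by
    have := h.contσ
    fun_prop
  obtain ⟨BP, hBP⟩ := isCompact_Icc.exists_bound_of_continuousOn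
    (hPc.continuousOn (s := Icc (-1 : ℝ) 1))
  have hi1 : Integrable fun x => A x ^ 3 * P (Real.cos (2 * (σ x - τ))) :=
    h.int_A3_mul (g := fun x => P (Real.cos (2 * (σ x - τ)))) (hPc.comp hcosc) (B := BP)
      fun x => by
        have := hBP _ ⟨Real.neg_one_le_cos (2 * (σ x - τ)), Real.cos_le_one (2 * (σ x - τ))⟩
        simpa [Real.norm_eq_abs] using this
  have hi2 : Integrable fun x => A x ^ 3 * Real.cos (2 * (σ x - τ)) :=
    h.int_A3_mul hcosc (B := 1) fun x => Real.abs_cos_le_one _
  have hi3 := h.int_Au2 τ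
  -- pointwise comparison on the window
  have hcmp : ∫ x in win σ τ, (3 / C ^ 2 * (A x ^ 3 * P (Real.cos (2 * (σ x - τ)))) -
      2 / C ^ 3 * (M * (A x ^ 3 * Real.cos (2 * (σ x - τ))))) ≤
      ∫ x in win σ τ, (A x * uF A σ τ x ^ 2) / M ^ 2 := by
    refine setIntegral_mono_on ?_ ?_ hS ?_
    · exact ((hi1.const_mul _).sub ((hi2.const_mul _).const_mul _)).integrableOn
    · exact (hi3.div_const _).integrableOn
    · intro x hx
      have hx1 := abs_lt.mp (show |σ x - τ| < π / 4 from hx)
      have hcpos : 0 < Real.cos (2 * (σ x - τ)) :=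
        Real.cos_pos_of_mem_Ioo ⟨by linarith [hx1.1], by linarith [hx1.2]⟩
      set c := Real.cos (2 * (σ x - τ)) with hc
      set r := c ^ ((1 : ℝ) / 3) with hr
      have hr0 : 0 ≤ r := Real.rpow_nonneg hcpos.le _
      have hr3 : r ^ 3 = c := by
        rw [hr, ← Real.rpow_natCast, ← Real.rpow_mul hcpos.le]
        norm_num
      have hc1 : c ≤ 1 := Real.cos_le_one _
      have hr1 : r ≤ 1 := Real.rpow_le_one hcpos.le hc1 (by norm_num)
      have hPr := hP r hr0 hr1
      rw [hr3] at hPr
      have ht := tangent_bound hr0 hMpos hC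
      have hA3 : 0 < A x ^ 3 := pow_pos (h.hApos x) 3
      have h6 : r ^ 6 = c ^ 2 := by rw [← hr3]; ring
      have h7 : A x * uF A σ τ x ^ 2 / M ^ 2 = A x ^ 3 * (r ^ 6 / M ^ 2) := by
        unfold uF
        rw [← hc, h6]
        ring
      rw [h7]
      have h8 : 3 / C ^ 2 * P c ≤ 3 / C ^ 2 * r ^ 4 :=
        mul_le_mul_of_nonneg_left hPr (by positivity)
      have h9 : 3 / C ^ 2 * P c - 2 / C ^ 3 * (M * c) ≤ r ^ 6 / M ^ 2 := by
        rw [← hr3] at h8 ⊢
        rw [hr3] at h8 ⊢
        have h10 : 2 / C ^ 3 * (M * r ^ 3) = 2 / C ^ 3 * (M * c) := by rw [hr3]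
        linarith
      have h11 := mul_le_mul_of_nonneg_left h9 hA3.le
      calc 3 / C ^ 2 * (A x ^ 3 * P c) - 2 / C ^ 3 * (M * (A x ^ 3 * c))
          = A x ^ 3 * (3 / C ^ 2 * P c - 2 / C ^ 3 * (M * c)) := by ring
        _ ≤ _ := h11
  rw [integral_sub ((hi1.const_mul _).integrableOn) (((hi2.const_mul _).const_mul _).integrableOn),
    integral_const_mul, integral_const_mul, integral_const_mul, integral_div] at hcmp
  have hfin : π ^ 2 * (X / M ^ 2) ≤ Y := by
    have h3 : 0 < M ^ 2 := by positivity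
    rw [← mul_div_assoc, div_le_iff₀ h3]
    linarith
  have hpi2 : 0 ≤ π ^ 2 := by positivity
  calc _ ≤ π ^ 2 * (X / M ^ 2) := mul_le_mul_of_nonneg_left hcmp hpi2
    _ ≤ Y := hfin

theorem setIntegral_win (h : WinData A A' s σ) (τ : ℝ) (g : ℝ → ℝ) :
    ∫ x in win σ τ, g x = ∫ x, chi (σ x - τ) * g x := by
  rw [← integral_indicator (h.measurableSet_win τ)]
  congr 1
  funext x
  by_cases hx : x ∈ win σ τ
  · rw [indicator_of_mem hx, chi_eq_one hx, one_mul]
  · rw [indicator_of_notMem hx, chi_eq_zero hx, zero_mul]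

/-- Joint integrability for the window functions. -/
theorem integrable_window (h : WinData A A' s σ) {a G : ℝ → ℝ} (ha : Continuous a)
    (hai : Integrable a) (hG : Continuous G) :
    Integrable (uncurry fun x τ => chi (σ x - τ) * (a x * G (σ x - τ)))
      (volume.prod volume) := by
  have hσ := h.contσ
  have hcont : Continuous fun p : ℝ × ℝ => σ p.1 - p.2 := by fun_prop
  have hmeas : Measurable (uncurry fun x τ => chi (σ x - τ) * (a x * G (σ x - τ))) := by
    have h1 : Measurable fun p : ℝ × ℝ => chi (σ p.1 - p.2) :=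
      measurable_chi.comp hcont.measurable
    have h2 : Measurable fun p : ℝ × ℝ => a p.1 * G (σ p.1 - p.2) := by
      apply Continuous.measurable
      fun_prop
    exact h1.mul h2
  rw [integrable_prod_iff hmeas.aestronglyMeasurable]
  constructor
  · refine Eventually.of_forall fun x => ?_
    have h1 := (integrable_chi_shift hG (σ x)).const_mul (a x)
    refine h1.congr (Eventually.of_forall fun τ => ?_)
    simp only [uncurry]
    ring
  · have heq : ∀ x, ∫ τ, ‖uncurry (fun x τ => chi (σ x - τ) * (a x * G (σ x - τ))) (x, τ)‖ =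
        |a x| * ∫ t in (-(π / 4))..(π / 4), |G t| := by
      intro x
      rw [← integral_chi_shift (fun t => |G t|) (σ x), ← integral_const_mul]
      congr 1
      funext τ
      simp only [uncurry, Real.norm_eq_abs, abs_mul]
      rw [abs_of_nonneg (chi_nonneg _)]
      ring
    simp_rw [heq]
    exact hai.abs.mul_const _

/-- Integrability of a window function for a fixed centre. -/
theorem integrable_chi_a (h : WinData A A' s σ) {a G : ℝ → ℝ} (ha : Continuous a)
    (hai : Integrable a) (hG : Continuous G) (τ : ℝ) :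
    Integrable fun x => chi (σ x - τ) * (a x * G (σ x - τ)) := by
  have hσ := h.contσ
  obtain ⟨B, hB⟩ := isCompact_Icc.exists_bound_of_continuousOn
    (hG.continuousOn (s := Icc (-(π / 4)) (π / 4)))
  have hdom : Integrable fun x => |a x| * |B| := hai.abs.mul_const _
  refine hdom.mono' ?_ (Eventually.of_forall fun x => ?_)
  · have m1 : Measurable fun x => chi (σ x - τ) :=
      measurable_chi.comp (hσ.sub continuous_const).measurable
    have m2 : Continuous fun x => a x * G (σ x - τ) := ha.mul (hG.comp (hσ.sub continuous_const))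
    exact (m1.mul m2.measurable).aestronglyMeasurable
  · by_cases hx : |σ x - τ| < π / 4
    · rw [chi_eq_one hx, one_mul, Real.norm_eq_abs, abs_mul]
      refine mul_le_mul_of_nonneg_left ?_ (abs_nonneg _)
      have h1 := abs_lt.mp hx
      have h2 := hB (σ x - τ) ⟨h1.1.le, h1.2.le⟩
      rw [Real.norm_eq_abs] at h2
      exact h2.trans (le_abs_self B)
    · rw [chi_eq_zero hx, zero_mul, norm_zero]
      positivity

/-- The integral over the centre of a window function. -/
theorem integral_window (h : WinData A A' s σ) {a G : ℝ → ℝ} (ha : Continuous a)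
    (hai : Integrable a) (hG : Continuous G) :
    Integrable (fun τ => ∫ x, chi (σ x - τ) * (a x * G (σ x - τ))) ∧
    ∫ τ, ∫ x, chi (σ x - τ) * (a x * G (σ x - τ)) =
      (∫ x, a x) * ∫ t in (-(π / 4))..(π / 4), G t := by
  have hint := h.integrable_window ha hai hG
  constructor
  · exact hint.integral_prod_right
  · rw [← integral_integral_swap hint, ← integral_mul_const]
    congr 1
    funext x
    rw [← integral_chi_shift G (σ x), ← integral_const_mul]
    congr 1
    funext τ
    ring

/-- The window mass. -/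
noncomputable def mass (A σ : ℝ → ℝ) (τ : ℝ) : ℝ := ∫ x, chi (σ x - τ) * A x

theorem mass_nonneg (h : WinData A A' s σ) (τ : ℝ) : 0 ≤ mass A σ τ :=
  integral_nonneg fun x => mul_nonneg (chi_nonneg _) (h.hApos x).le

theorem integrable_chi_A (h : WinData A A' s σ) (τ : ℝ) :
    Integrable fun x => chi (σ x - τ) * A x := by
  refine h.int1.mono' ?_ ?_
  · have h1 : Measurable fun x => chi (σ x - τ) :=
      measurable_chi.comp (h.contσ.sub continuous_const).measurable
    exact (h1.mul h.contA.measurable).aestronglyMeasurable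
  · refine Eventually.of_forall fun x => ?_
    have hpos := (h.hApos x).le
    rw [Real.norm_of_nonneg (mul_nonneg (chi_nonneg _) hpos)]
    have := chi_le_one (σ x - τ)
    nlinarith

theorem mass_le (h : WinData A A' s σ) (τ : ℝ) : mass A σ τ ≤ ∫ x, A x := by
  refine integral_mono (h.integrable_chi_A τ) h.int1 fun x => ?_
  have hpos := (h.hApos x).le
  have := chi_le_one (σ x - τ)
  simp only
  nlinarith

theorem measurable_mass (h : WinData A A' s σ) : StronglyMeasurable (mass A σ) := by
  have hcont : Continuous fun p : ℝ × ℝ => σ p.2 - p.1 := by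
    have := h.contσ
    fun_prop
  have h1 : StronglyMeasurable (uncurry fun τ x => chi (σ x - τ) * A x) := by
    have h2 : Measurable fun p : ℝ × ℝ => chi (σ p.2 - p.1) :=
      measurable_chi.comp hcont.measurable
    have h3 : Measurable fun p : ℝ × ℝ => A p.2 := h.contA.measurable.comp measurable_snd
    exact (h2.mul h3).stronglyMeasurable
  exact h1.integral_prod_right

/-- The inner integral over the centre, with the overlap. -/
theorem inner_mass (h : WinData A A' s σ) (x : ℝ) :
    ∫ τ, chi (σ x - τ) * Real.cos (2 * (σ x - τ)) * mass A σ τ =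
      ∫ y, A y * cut (σ x - σ y) := by
  have hσ := h.contσ
  have hK : Integrable (uncurry fun y τ =>
      chi (σ x - τ) * Real.cos (2 * (σ x - τ)) * (chi (σ y - τ) * A y))
      (volume.prod volume) := by
    have hmeas : Measurable (uncurry fun y τ =>
        chi (σ x - τ) * Real.cos (2 * (σ x - τ)) * (chi (σ y - τ) * A y)) := by
      have c1 : Continuous fun p : ℝ × ℝ => σ x - p.2 := by fun_prop
      have c2 : Continuous fun p : ℝ × ℝ => σ p.1 - p.2 := by fun_prop
      have m1 : Measurable fun p : ℝ × ℝ => chi (σ x - p.2) := measurable_chi.comp c1.measurable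
      have m2 : Measurable fun p : ℝ × ℝ => Real.cos (2 * (σ x - p.2)) := by
        apply Continuous.measurable
        fun_prop
      have m3 : Measurable fun p : ℝ × ℝ => chi (σ p.1 - p.2) := measurable_chi.comp c2.measurable
      have m4 : Measurable fun p : ℝ × ℝ => A p.1 := h.contA.measurable.comp measurable_fst
      exact (m1.mul m2).mul (m3.mul m4)
    rw [integrable_prod_iff hmeas.aestronglyMeasurable]
    constructor
    · refine Eventually.of_forall fun y => ?_
      have h1 : Integrable fun τ => chi (σ x - τ) * Real.cos (2 * (σ x - τ)) :=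
        integrable_chi_shift (G := fun t => Real.cos (2 * t)) (by fun_prop) (σ x)
      have h2 : AEStronglyMeasurable (fun τ => chi (σ y - τ) * A y) volume := by
        have : Measurable fun τ => chi (σ y - τ) * A y :=
          (measurable_chi.comp (measurable_const.sub measurable_id)).mul measurable_const
        exact this.aestronglyMeasurable
      have h3 := h1.mul_bdd (c := A y) h2 (Eventually.of_forall fun τ => by
        have hpos := (h.hApos y).le
        rw [Real.norm_of_nonneg (mul_nonneg (chi_nonneg _) hpos)]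
        have := chi_le_one (σ y - τ)
        nlinarith)
      exact h3
    · have hdom : Integrable fun y => A y * ∫ τ, chi (σ x - τ) * 1 :=
        h.int1.mul_const _
      refine hdom.mono' ?_ ?_
      · exact hmeas.aestronglyMeasurable.norm.integral_prod_right'
      · refine Eventually.of_forall fun y => ?_
        have hpos := (h.hApos y).le
        rw [Real.norm_of_nonneg (integral_nonneg fun τ => norm_nonneg _), ← integral_const_mul]
        have hi1 : Integrable fun τ => chi (σ x - τ) * (1 : ℝ) :=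
          integrable_chi_shift (G := fun _ => (1 : ℝ)) continuous_const (σ x)
        refine integral_mono_of_nonneg (Eventually.of_forall fun τ => norm_nonneg _)
          (hi1.const_mul _) (Eventually.of_forall fun τ => ?_)
        simp only [uncurry, Real.norm_eq_abs, abs_mul]
        rw [abs_of_nonneg (chi_nonneg _), abs_of_nonneg (chi_nonneg _), abs_of_pos (h.hApos y)]
        have h1 := Real.abs_cos_le_one (2 * (σ x - τ))
        have h2 := chi_le_one (σ y - τ)
        have h3 := chi_nonneg (σ y - τ)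
        have h4 := chi_nonneg (σ x - τ)
        have h5 : |Real.cos (2 * (σ x - τ))| * (chi (σ y - τ) * A y) ≤ 1 * (1 * A y) := by
          apply mul_le_mul h1 _ (mul_nonneg h3 hpos) zero_le_one
          exact mul_le_mul_of_nonneg_right h2 hpos
        nlinarith
  calc ∫ τ, chi (σ x - τ) * Real.cos (2 * (σ x - τ)) * mass A σ τ
      = ∫ τ, ∫ y, chi (σ x - τ) * Real.cos (2 * (σ x - τ)) * (chi (σ y - τ) * A y) := by
        congr 1
        funext τ
        unfold mass
        rw [integral_const_mul]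
    _ = ∫ y, ∫ τ, chi (σ x - τ) * Real.cos (2 * (σ x - τ)) * (chi (σ y - τ) * A y) :=
        (integral_integral_swap hK).symm
    _ = ∫ y, A y * cut (σ x - σ y) := by
        congr 1
        funext y
        have h1 := integral_sub_left_eq_self
          (fun t => chi t * (chi (t - (σ x - σ y)) * Real.cos (2 * t))) volume (σ x)
        rw [overlap_eq] at h1
        rw [← h1, ← integral_const_mul]
        congr 1
        funext τ
        have h2 : σ x - τ - (σ x - σ y) = σ y - τ := by ring
        rw [h2]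
        ring

/-- The double integral with the masses. -/
theorem integral_mass_le (h : WinData A A' s σ) {Λ : ℝ}
    (hK : ∀ x, ∫ y, A y * cut (σ x - σ y) ≤ Λ) :
    Integrable (fun τ => mass A σ τ * ∫ x, chi (σ x - τ) * (A x ^ 3 * Real.cos (2 * (σ x - τ)))) ∧
    ∫ τ, mass A σ τ * ∫ x, chi (σ x - τ) * (A x ^ 3 * Real.cos (2 * (σ x - τ))) ≤
      Λ * ∫ x, A x ^ 3 := by
  have hcos : Continuous fun t : ℝ => Real.cos (2 * t) := by fun_prop
  have hA3c : Continuous fun x => A x ^ 3 := h.contA.pow 3
  have hint := h.integrable_window hA3c h.int3 hcos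
  have hN := h.measurable_mass
  have hbdd : ∀ τ, ‖mass A σ τ‖ ≤ ∫ x, A x := fun τ => by
    rw [Real.norm_of_nonneg (h.mass_nonneg τ)]
    exact h.mass_le τ
  constructor
  · exact (h.integral_window hA3c h.int3 hcos).1.bdd_mul hN.aestronglyMeasurable
      (Eventually.of_forall hbdd)
  · have hprod : Integrable (uncurry fun x τ =>
        mass A σ τ * (chi (σ x - τ) * (A x ^ 3 * Real.cos (2 * (σ x - τ)))))
        (volume.prod volume) := by
      have h1 : AEStronglyMeasurable (fun p : ℝ × ℝ => mass A σ p.2) (volume.prod volume) :=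
        (hN.comp_measurable measurable_snd).aestronglyMeasurable
      exact hint.bdd_mul h1 (Eventually.of_forall fun p => hbdd p.2)
    calc ∫ τ, mass A σ τ * ∫ x, chi (σ x - τ) * (A x ^ 3 * Real.cos (2 * (σ x - τ)))
        = ∫ τ, ∫ x, mass A σ τ * (chi (σ x - τ) * (A x ^ 3 * Real.cos (2 * (σ x - τ)))) := by
          congr 1
          funext τ
          rw [integral_const_mul]
      _ = ∫ x, ∫ τ, mass A σ τ * (chi (σ x - τ) * (A x ^ 3 * Real.cos (2 * (σ x - τ)))) :=
          (integral_integral_swap hprod).symm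
      _ = ∫ x, A x ^ 3 * ∫ y, A y * cut (σ x - σ y) := by
          congr 1
          funext x
          rw [← h.inner_mass x, ← integral_const_mul]
          congr 1
          funext τ
          ring
      _ ≤ ∫ x, A x ^ 3 * Λ := by
          have hint2 : Integrable fun x => A x ^ 3 * ∫ y, A y * cut (σ x - σ y) := by
            have h1 := hprod.integral_prod_left
            refine h1.congr (Eventually.of_forall fun x => ?_)
            simp only [uncurry]
            rw [← h.inner_mass x, ← integral_const_mul]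
            congr 1
            funext τ
            ring
          refine integral_mono hint2 (h.int3.mul_const _) fun x => ?_
          exact mul_le_mul_of_nonneg_left (hK x) (pow_pos (h.hApos x) 3).le
      _ = Λ * ∫ x, A x ^ 3 := by
          rw [integral_mul_const]; ring

/-- The main integrated inequality. -/
theorem integrated (h : WinData A A' s σ) {P : ℝ → ℝ} (hPc : Continuous P)
    (hP : ∀ r, 0 ≤ r → r ≤ 1 → P (r ^ 3) ≤ r ^ 4) {C : ℝ} (hC : 0 < C) {Λ : ℝ}
    (hK : ∀ x, ∫ y, A y * cut (σ x - σ y) ≤ Λ) :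
    π ^ 2 * (3 / C ^ 2 * (∫ t in (-(π / 4))..(π / 4), P (Real.cos (2 * t))) -
        2 / C ^ 3 * Λ) * (∫ x, A x ^ 3) ≤
      π / 4 * (∫ x, A' x ^ 2 / A x) + π * ∫ x, A x * s x ^ 2 := by
  have hpi := Real.pi_pos
  have hA3c : Continuous fun x => A x ^ 3 := h.contA.pow 3
  have hcos : Continuous fun t : ℝ => Real.cos (2 * t) := by fun_prop
  have hPcos : Continuous fun t : ℝ => P (Real.cos (2 * t)) := hPc.comp hcos
  obtain ⟨hFP, hFPv⟩ := h.integral_window hA3c h.int3 hPcos
  obtain ⟨hFC, hFCv⟩ := h.integral_mass_le hK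
  -- the three pieces of the energy
  have ha1c : Continuous fun x => A' x ^ 2 / A x :=
    (h.hA'.pow 2).div h.contA fun x => (h.hApos x).ne'
  have ha3c : Continuous fun x => A x * s x ^ 2 := h.contA.mul (h.hs.pow 2)
  have ha2c : Continuous fun x => A' x * s x := h.hA'.mul h.hs
  have ha2i : Integrable fun x => A' x * s x := by
    have hdom : Integrable fun x => A' x ^ 2 / A x + A x * s x ^ 2 := h.intE.add h.intS
    refine hdom.mono' ha2c.aestronglyMeasurable (Eventually.of_forall fun x => ?_)
    have hpos := h.hApos x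
    rw [Real.norm_eq_abs, abs_le]
    have h1 : A' x ^ 2 / A x + A x * s x ^ 2 - 2 * (A' x * s x) =
        (A' x - A x * s x) ^ 2 / A x := by
      field_simp; ring
    have h2 : A' x ^ 2 / A x + A x * s x ^ 2 + 2 * (A' x * s x) =
        (A' x + A x * s x) ^ 2 / A x := by
      field_simp; ring
    have h3 : 0 ≤ (A' x - A x * s x) ^ 2 / A x := by positivity
    have h4 : 0 ≤ (A' x + A x * s x) ^ 2 / A x := by positivity
    have h5 : 0 ≤ A' x ^ 2 / A x + A x * s x ^ 2 := by positivity
    constructor <;> nlinarith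
  have hG1 : Continuous fun t : ℝ => Real.cos (2 * t) ^ 2 := by fun_prop
  have hG2 : Continuous fun t : ℝ => Real.sin (2 * t) * Real.cos (2 * t) := by fun_prop
  have hG3 : Continuous fun t : ℝ => Real.sin (2 * t) ^ 2 := by fun_prop
  obtain ⟨hF1, hF1v⟩ := h.integral_window ha1c h.intE hG1
  obtain ⟨hF2, hF2v⟩ := h.integral_window ha2c ha2i hG2
  obtain ⟨hF3, hF3v⟩ := h.integral_window ha3c h.intS hG3
  rw [integral_cos_sq_window] at hF1v
  rw [integral_sin_cos_window] at hF2v
  rw [integral_sin_sq_window] at hF3v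
  -- the pointwise decomposition of the energy
  have hsplit : ∀ τ, ∫ x in win σ τ, uD A A' s σ τ x ^ 2 / A x =
      (∫ x, chi (σ x - τ) * ((A' x ^ 2 / A x) * Real.cos (2 * (σ x - τ)) ^ 2)) -
        4 * (∫ x, chi (σ x - τ) * ((A' x * s x) *
          (Real.sin (2 * (σ x - τ)) * Real.cos (2 * (σ x - τ))))) +
        4 * ∫ x, chi (σ x - τ) * ((A x * s x ^ 2) * Real.sin (2 * (σ x - τ)) ^ 2) := by
    intro τ
    rw [h.setIntegral_win τ]
    have i1 := h.integrable_chi_a ha1c h.intE hG1 τ
    have i2 := h.integrable_chi_a ha2c ha2i hG2 τ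
    have i3 := h.integrable_chi_a ha3c h.intS hG3 τ
    have e : (fun x => chi (σ x - τ) * (uD A A' s σ τ x ^ 2 / A x)) = fun x =>
        (chi (σ x - τ) * ((A' x ^ 2 / A x) * Real.cos (2 * (σ x - τ)) ^ 2) -
          4 * (chi (σ x - τ) * ((A' x * s x) *
            (Real.sin (2 * (σ x - τ)) * Real.cos (2 * (σ x - τ)))))) +
          4 * (chi (σ x - τ) * ((A x * s x ^ 2) * Real.sin (2 * (σ x - τ)) ^ 2)) := by
      funext x
      have hAx := (h.hApos x).ne'
      unfold uD
      field_simp
      ring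
    have i2' : Integrable fun x => 4 * (chi (σ x - τ) * ((A' x * s x) *
        (Real.sin (2 * (σ x - τ)) * Real.cos (2 * (σ x - τ))))) := i2.const_mul 4
    have i3' : Integrable fun x =>
        4 * (chi (σ x - τ) * ((A x * s x ^ 2) * Real.sin (2 * (σ x - τ)) ^ 2)) := i3.const_mul 4
    have i12 : Integrable fun x =>
        chi (σ x - τ) * ((A' x ^ 2 / A x) * Real.cos (2 * (σ x - τ)) ^ 2) -
          4 * (chi (σ x - τ) * ((A' x * s x) *
            (Real.sin (2 * (σ x - τ)) * Real.cos (2 * (σ x - τ))))) := i1.sub i2'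
    rw [e, integral_add i12 i3', integral_sub i1 i2', integral_const_mul, integral_const_mul]
  -- the inequality for each centre
  have hper : ∀ τ, π ^ 2 * (3 / C ^ 2 * (∫ x, chi (σ x - τ) * (A x ^ 3 * P (Real.cos (2 * (σ x - τ))))) -
      2 / C ^ 3 * (mass A σ τ * ∫ x, chi (σ x - τ) * (A x ^ 3 * Real.cos (2 * (σ x - τ))))) ≤
      (∫ x, chi (σ x - τ) * ((A' x ^ 2 / A x) * Real.cos (2 * (σ x - τ)) ^ 2)) -
        4 * (∫ x, chi (σ x - τ) * ((A' x * s x) *
          (Real.sin (2 * (σ x - τ)) * Real.cos (2 * (σ x - τ))))) +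
        4 * ∫ x, chi (σ x - τ) * ((A x * s x ^ 2) * Real.sin (2 * (σ x - τ)) ^ 2) := by
    intro τ
    have h1 := h.per_tau τ hPc hP hC
    rw [hsplit τ, h.setIntegral_win τ, h.setIntegral_win τ, h.setIntegral_win τ] at h1
    exact h1
  have hP' : Integrable fun τ => 3 / C ^ 2 *
      (∫ x, chi (σ x - τ) * (A x ^ 3 * P (Real.cos (2 * (σ x - τ))))) := hFP.const_mul _
  have hC' : Integrable fun τ => 2 / C ^ 3 *
      (mass A σ τ * ∫ x, chi (σ x - τ) * (A x ^ 3 * Real.cos (2 * (σ x - τ)))) := hFC.const_mul _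
  have hPC : Integrable fun τ => 3 / C ^ 2 *
      (∫ x, chi (σ x - τ) * (A x ^ 3 * P (Real.cos (2 * (σ x - τ))))) -
      2 / C ^ 3 * (mass A σ τ * ∫ x, chi (σ x - τ) * (A x ^ 3 * Real.cos (2 * (σ x - τ)))) :=
    hP'.sub hC'
  have hL : Integrable fun τ => π ^ 2 * (3 / C ^ 2 *
      (∫ x, chi (σ x - τ) * (A x ^ 3 * P (Real.cos (2 * (σ x - τ))))) -
      2 / C ^ 3 * (mass A σ τ * ∫ x, chi (σ x - τ) * (A x ^ 3 * Real.cos (2 * (σ x - τ))))) :=
    hPC.const_mul _
  have hF2' : Integrable fun τ => 4 * (∫ x, chi (σ x - τ) * ((A' x * s x) *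
      (Real.sin (2 * (σ x - τ)) * Real.cos (2 * (σ x - τ))))) := hF2.const_mul 4
  have hF3' : Integrable fun τ => 4 *
      ∫ x, chi (σ x - τ) * ((A x * s x ^ 2) * Real.sin (2 * (σ x - τ)) ^ 2) := hF3.const_mul 4
  have hF12 : Integrable fun τ =>
      (∫ x, chi (σ x - τ) * ((A' x ^ 2 / A x) * Real.cos (2 * (σ x - τ)) ^ 2)) -
        4 * (∫ x, chi (σ x - τ) * ((A' x * s x) *
          (Real.sin (2 * (σ x - τ)) * Real.cos (2 * (σ x - τ))))) := hF1.sub hF2'
  have hR : Integrable fun τ =>
      (∫ x, chi (σ x - τ) * ((A' x ^ 2 / A x) * Real.cos (2 * (σ x - τ)) ^ 2)) -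
        4 * (∫ x, chi (σ x - τ) * ((A' x * s x) *
          (Real.sin (2 * (σ x - τ)) * Real.cos (2 * (σ x - τ))))) +
        4 * ∫ x, chi (σ x - τ) * ((A x * s x ^ 2) * Real.sin (2 * (σ x - τ)) ^ 2) :=
    hF12.add hF3'
  have hmono := integral_mono hL hR hper
  rw [integral_const_mul, integral_sub hP' hC', integral_const_mul, integral_const_mul,
    integral_add hF12 hF3', integral_sub hF1 hF2', integral_const_mul,
    integral_const_mul, hF1v, hF2v, hF3v, hFPv] at hmono
  set IP := ∫ t in (-(π / 4))..(π / 4), P (Real.cos (2 * t))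
  set I3 := ∫ x, A x ^ 3
  set E1 := ∫ x, A' x ^ 2 / A x
  set E3 := ∫ x, A x * s x ^ 2
  set E2 := ∫ x, A' x * s x
  set Z := ∫ τ, mass A σ τ * ∫ x, chi (σ x - τ) * (A x ^ 3 * Real.cos (2 * (σ x - τ)))
  have hC3 : 0 ≤ 2 / C ^ 3 := by positivity
  have hpi2 : 0 ≤ π ^ 2 := by positivity
  have h1 : 2 / C ^ 3 * Z ≤ 2 / C ^ 3 * (Λ * I3) := mul_le_mul_of_nonneg_left hFCv hC3
  have h2 : π ^ 2 * (3 / C ^ 2 * (I3 * IP) - 2 / C ^ 3 * (Λ * I3)) ≤
      π ^ 2 * (3 / C ^ 2 * (I3 * IP) - 2 / C ^ 3 * Z) :=
    mul_le_mul_of_nonneg_left (by linarith) hpi2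
  calc π ^ 2 * (3 / C ^ 2 * IP - 2 / C ^ 3 * Λ) * I3
      = π ^ 2 * (3 / C ^ 2 * (I3 * IP) - 2 / C ^ 3 * (Λ * I3)) := by ring
    _ ≤ _ := h2
    _ ≤ _ := hmono
    _ = π / 4 * E1 + π * E3 := by ring

end WinData

end Vale.Agent.Lib.P371W
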