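import Vale.Agent.Lib.P371W.Curve
import Vale.Agent.Lib.P371W.Integrate

/-!
The window argument for a nonvanishing `C¹` curve.
-/

open MeasureTheory Set Filter Topology
open scoped Real

namespace Vale.Agent.Lib.P371W

variable {E : Type*} [NormedAddCommGroup E] [InnerProductSpace ℝ E]

section positive

variable {Ψ Ψ' : ℝ → E}

theorem norm_sq_hasDeriv (hd : ∀ x, HasDerivAt Ψ (Ψ' x) x) (x : ℝ) :
    HasDerivAt (fun x => ‖Ψ x‖ ^ 2) (2 * inner ℝ (Ψ x) (Ψ' x)) x :=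
  (hd x).norm_sq

theorem integrable_inner_mul (hd : ∀ x, HasDerivAt Ψ (Ψ' x) x) (hc : Continuous Ψ')
    (hi : Integrable fun x => ‖Ψ x‖ ^ 2) (hi' : Integrable fun x => ‖Ψ' x‖ ^ 2) :
    Integrable fun x => 2 * inner ℝ (Ψ x) (Ψ' x) := by
  have hΨ := continuous_curve hd
  refine (hi.add hi').mono' ((continuous_const.mul (hΨ.inner hc)).aestronglyMeasurable)
    (Eventually.of_forall fun x => ?_)
  rw [Real.norm_eq_abs, abs_mul, abs_of_pos (by norm_num : (0 : ℝ) < 2)]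
  have h1 := abs_real_inner_le_norm (Ψ x) (Ψ' x)
  have h2 := sq_nonneg (‖Ψ x‖ - ‖Ψ' x‖)
  simp only [Pi.add_apply]
  nlinarith

theorem winData_of_curve (hd : ∀ x, HasDerivAt Ψ (Ψ' x) x) (hc : Continuous Ψ')
    (hne : ∀ x, Ψ x ≠ 0) (hi : Integrable fun x => ‖Ψ x‖ ^ 2)
    (hi' : Integrable fun x => ‖Ψ' x‖ ^ 2) :
    WinData (fun x => ‖Ψ x‖ ^ 2) (fun x => 2 * inner ℝ (Ψ x) (Ψ' x))
      (fun x => ‖angD Ψ Ψ' x‖) (arc Ψ Ψ') := by
  have hΨ := continuous_curve hd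
  have hAc : Continuous fun x => ‖Ψ x‖ ^ 2 := hΨ.norm.pow 2
  have hA'c : Continuous fun x => 2 * inner ℝ (Ψ x) (Ψ' x) := continuous_const.mul (hΨ.inner hc)
  have hApos : ∀ x, 0 < ‖Ψ x‖ ^ 2 := fun x => pow_pos (norm_pos_iff.mpr (hne x)) 2
  have hA'i := integrable_inner_mul hd hc hi hi'
  have hlimTop : Tendsto (fun x => ‖Ψ x‖ ^ 2) atTop (𝓝 0) :=
    tendsto_zero_of_hasDerivAt_of_integrableOn_Ioi (a := 0)
      (fun x _ => norm_sq_hasDeriv hd x) hA'i.integrableOn hi.integrableOn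
  have hlimBot : Tendsto (fun x => ‖Ψ x‖ ^ 2) atBot (𝓝 0) :=
    tendsto_zero_of_hasDerivAt_of_integrableOn_Iic (a := 0)
      (fun x _ => norm_sq_hasDeriv hd x) hA'i.integrableOn hi.integrableOn
  -- boundedness
  obtain ⟨xm, hxm⟩ : ∃ xm, ∀ y, ‖Ψ y‖ ^ 2 ≤ ‖Ψ xm‖ ^ 2 := by
    refine hAc.exists_forall_ge' 0 ?_
    have h1 : Tendsto (fun x => ‖Ψ x‖ ^ 2) (atBot ⊔ atTop) (𝓝 0) := hlimBot.sup hlimTop
    rw [cocompact_eq_atBot_atTop]
    exact h1.eventually_le_const (hApos 0)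
  refine ⟨norm_sq_hasDeriv hd, hA'c, hApos, (continuous_angD hd hc hne).norm, fun x => norm_nonneg _,
    hasDerivAt_arc hd hc hne, monotone_arc hd hc hne, hlimTop, hlimBot, hi, ?_, ?_, ?_⟩
  · have hdom : Integrable fun x => ‖Ψ x‖ ^ 2 * (‖Ψ xm‖ ^ 2) ^ 2 := hi.mul_const _
    refine hdom.mono' (hAc.pow 3).aestronglyMeasurable (Eventually.of_forall fun x => ?_)
    have h1 := hxm x
    have h2 := hApos x
    rw [Real.norm_of_nonneg (by positivity), pow_succ]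
    have h3 : (‖Ψ x‖ ^ 2) ^ 2 ≤ (‖Ψ xm‖ ^ 2) ^ 2 := pow_le_pow_left₀ h2.le h1 2
    nlinarith
  · have hdom : Integrable fun x => 4 * ‖Ψ' x‖ ^ 2 := hi'.const_mul 4
    refine hdom.mono' ?_ (Eventually.of_forall fun x => ?_)
    · exact ((hA'c.pow 2).div hAc fun x => (hApos x).ne').aestronglyMeasurable
    · have h1 := energy_split (Ψ' := Ψ') hne x
      have h2 := hApos x
      rw [Real.norm_of_nonneg (by positivity)]
      have h3 : (2 * inner ℝ (Ψ x) (Ψ' x)) ^ 2 / ‖Ψ x‖ ^ 2 = 4 * radD Ψ Ψ' x ^ 2 := by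
        unfold radD
        rw [div_pow]
        ring
      rw [h3, h1]
      nlinarith [mul_nonneg h2.le (sq_nonneg ‖angD Ψ Ψ' x‖)]
  · refine hi'.mono' ?_ (Eventually.of_forall fun x => ?_)
    · exact (hAc.mul ((continuous_angD hd hc hne).norm.pow 2)).aestronglyMeasurable
    · have h1 := energy_split (Ψ' := Ψ') hne x
      have h2 := hApos x
      rw [Real.norm_of_nonneg (by positivity), h1]
      nlinarith [sq_nonneg (radD Ψ Ψ' x)]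

/-- The kernel bound for the window argument. -/
theorem kernel_bound (hd : ∀ x, HasDerivAt Ψ (Ψ' x) x) (hc : Continuous Ψ')
    (hne : ∀ x, Ψ x ≠ 0) (hi : Integrable fun x => ‖Ψ x‖ ^ 2)
    {Λ : ℝ} (hframe : ∀ v : E, ‖v‖ = 1 → ∫ x, inner ℝ (Ψ x) v ^ 2 ≤ Λ) (x : ℝ) :
    ∫ y, ‖Ψ y‖ ^ 2 * cut (arc Ψ Ψ' x - arc Ψ Ψ' y) ≤ Λ := by
  have hΨ := continuous_curve hd
  have hσ := continuous_arc hd hc hne
  have hm := monotone_arc hd hc hne
  have hunit := norm_ang (Ψ := Ψ) hne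
  have hang : ∀ a b, a ≤ b → arc Ψ Ψ' b - arc Ψ Ψ' a < π / 2 →
      Real.cos (arc Ψ Ψ' b - arc Ψ Ψ' a) ≤ inner ℝ (ang Ψ b) (ang Ψ a) := by
    intro a b hab hlen
    exact cos_le_inner_of_arc (hasDerivAt_ang hd hne) hunit (inner_ang_angD hne)
      (hasDerivAt_arc hd hc hne) hm hab hlen
  have hpt : ∀ y, ‖Ψ y‖ ^ 2 * cut (arc Ψ Ψ' x - arc Ψ Ψ' y) ≤ inner ℝ (Ψ y) (ang Ψ x) ^ 2 := by
    intro y
    have hinner : inner ℝ (Ψ y) (ang Ψ x) ^ 2 = ‖Ψ y‖ ^ 2 * inner ℝ (ang Ψ y) (ang Ψ x) ^ 2 := by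
      conv_lhs => rw [curve_eq_smul_ang hne y]
      rw [inner_smul_left]
      simp only [conj_trivial]
      ring
    rw [hinner]
    refine mul_le_mul_of_nonneg_left ?_ (by positivity)
    unfold cut
    by_cases hs : arc Ψ Ψ' x - arc Ψ Ψ' y ∈ Ioo (-(π / 2)) (π / 2)
    · rw [indicator_of_mem hs]
      have hcos0 : 0 ≤ Real.cos (arc Ψ Ψ' x - arc Ψ Ψ' y) :=
        Real.cos_nonneg_of_mem_Icc ⟨hs.1.le, hs.2.le⟩
      rcases le_total x y with hxy | hxy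
      · have h1 := hang x y hxy (by linarith [hs.1])
        rw [show arc Ψ Ψ' y - arc Ψ Ψ' x = -(arc Ψ Ψ' x - arc Ψ Ψ' y) by ring, Real.cos_neg] at h1
        exact pow_le_pow_left₀ hcos0 h1 2
      · have h1 := hang y x hxy hs.2
        rw [real_inner_comm] at h1
        exact pow_le_pow_left₀ hcos0 h1 2
    · rw [indicator_of_notMem hs]
      exact sq_nonneg _
  have hcut : Measurable fun y => cut (arc Ψ Ψ' x - arc Ψ Ψ' y) :=
    measurable_cut.comp (continuous_const.sub hσ).measurable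
  have hint1 : Integrable fun y => ‖Ψ y‖ ^ 2 * cut (arc Ψ Ψ' x - arc Ψ Ψ' y) := by
    refine hi.mono' (((hΨ.norm.pow 2).measurable.mul hcut).aestronglyMeasurable)
      (Eventually.of_forall fun y => ?_)
    have h1 := cut_nonneg (arc Ψ Ψ' x - arc Ψ Ψ' y)
    have h2 := cut_le_one (arc Ψ Ψ' x - arc Ψ Ψ' y)
    rw [Real.norm_of_nonneg (mul_nonneg (by positivity) h1)]
    exact mul_le_of_le_one_right (by positivity) h2
  have hint2 : Integrable fun y => inner ℝ (Ψ y) (ang Ψ x) ^ 2 := by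
    refine hi.mono' ((hΨ.inner continuous_const).pow 2).aestronglyMeasurable
      (Eventually.of_forall fun y => ?_)
    rw [Real.norm_of_nonneg (sq_nonneg _)]
    have h1 := abs_real_inner_le_norm (Ψ y) (ang Ψ x)
    rw [hunit x, mul_one] at h1
    rw [← sq_abs]
    exact pow_le_pow_left₀ (abs_nonneg _) h1 2
  exact (integral_mono hint1 hint2 hpt).trans (hframe _ (hunit x))

/-- The window inequality for a nonvanishing curve. -/
theorem core_positive (hd : ∀ x, HasDerivAt Ψ (Ψ' x) x) (hc : Continuous Ψ')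
    (hne : ∀ x, Ψ x ≠ 0) (hi : Integrable fun x => ‖Ψ x‖ ^ 2)
    (hi' : Integrable fun x => ‖Ψ' x‖ ^ 2)
    {Λ : ℝ} (hframe : ∀ v : E, ‖v‖ = 1 → ∫ x, inner ℝ (Ψ x) v ^ 2 ≤ Λ)
    {P : ℝ → ℝ} (hPc : Continuous P) (hP : ∀ r, 0 ≤ r → r ≤ 1 → P (r ^ 3) ≤ r ^ 4)
    {C : ℝ} (hC : 0 < C) :
    Integrable (fun x => (‖Ψ x‖ ^ 2) ^ 3) ∧
    π * (3 / C ^ 2 * (∫ t in (-(π / 4))..(π / 4), P (Real.cos (2 * t))) - 2 / C ^ 3 * Λ) *
      (∫ x, (‖Ψ x‖ ^ 2) ^ 3) ≤ ∫ x, ‖Ψ' x‖ ^ 2 := by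
  have hW := winData_of_curve hd hc hne hi hi'
  refine ⟨hW.int3, ?_⟩
  have hmain := hW.integrated hPc hP hC (Λ := Λ) (kernel_bound hd hc hne hi hframe)
  have hpi := Real.pi_pos
  -- the energy
  have hE : π / 4 * (∫ x, (2 * inner ℝ (Ψ x) (Ψ' x)) ^ 2 / ‖Ψ x‖ ^ 2) +
      π * ∫ x, ‖Ψ x‖ ^ 2 * ‖angD Ψ Ψ' x‖ ^ 2 = π * ∫ x, ‖Ψ' x‖ ^ 2 := by
    rw [← integral_const_mul, ← integral_const_mul, ← integral_const_mul,
      ← integral_add (hW.intE.const_mul _) (hW.intS.const_mul _)]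
    congr 1
    funext x
    have h1 := energy_split (Ψ' := Ψ') hne x
    have h3 : (2 * inner ℝ (Ψ x) (Ψ' x)) ^ 2 / ‖Ψ x‖ ^ 2 = 4 * radD Ψ Ψ' x ^ 2 := by
      unfold radD
      rw [div_pow]
      ring
    rw [h3, h1]
    ring
  rw [hE] at hmain
  have h2 : π * (π * (3 / C ^ 2 * (∫ t in (-(π / 4))..(π / 4), P (Real.cos (2 * t))) -
      2 / C ^ 3 * Λ) * (∫ x, (‖Ψ x‖ ^ 2) ^ 3)) ≤ π * ∫ x, ‖Ψ' x‖ ^ 2 := by
    calc _ = π ^ 2 * (3 / C ^ 2 * (∫ t in (-(π / 4))..(π / 4), P (Real.cos (2 * t))) -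
        2 / C ^ 3 * Λ) * (∫ x, (‖Ψ x‖ ^ 2) ^ 3) := by ring
      _ ≤ _ := hmain
  exact le_of_mul_le_mul_left h2 hpi

end positive

end Vale.Agent.Lib.P371W
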