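import Mathlib

/-!
A nonvanishing `C¹` curve `Ψ` in a real inner product space, its radial part `‖Ψ‖`, its angular
part `e = Ψ / ‖Ψ‖`, the energy splitting `‖Ψ'‖² = q'² + q² ‖e'‖²`, and the comparison between the
angle and the length of the curve `e` on the unit sphere.
-/

open MeasureTheory Set Filter Topology
open scoped Real

namespace Vale.Agent.Lib.P371W

variable {E : Type*} [NormedAddCommGroup E] [InnerProductSpace ℝ E]

/-- Derivative of the radial part. -/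
noncomputable def radD (Ψ Ψ' : ℝ → E) (x : ℝ) : ℝ := inner ℝ (Ψ x) (Ψ' x) / ‖Ψ x‖

/-- The angular part of the curve. -/
noncomputable def ang (Ψ : ℝ → E) (x : ℝ) : E := (‖Ψ x‖)⁻¹ • Ψ x

/-- The derivative of the angular part. -/
noncomputable def angD (Ψ Ψ' : ℝ → E) (x : ℝ) : E :=
  (‖Ψ x‖)⁻¹ • (Ψ' x - radD Ψ Ψ' x • ang Ψ x)

section basics

variable {Ψ Ψ' : ℝ → E}

theorem hasDerivAt_norm_curve (hd : ∀ x, HasDerivAt Ψ (Ψ' x) x) (hne : ∀ x, Ψ x ≠ 0) (x : ℝ) :
    HasDerivAt (fun x => ‖Ψ x‖) (radD Ψ Ψ' x) x := by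
  have h1 := (hd x).norm_sq
  have hpos : 0 < ‖Ψ x‖ := norm_pos_iff.mpr (hne x)
  have h2 : HasDerivAt (fun x => √(‖Ψ x‖ ^ 2)) (2 * inner ℝ (Ψ x) (Ψ' x) / (2 * √(‖Ψ x‖ ^ 2))) x :=
    h1.sqrt (by positivity)
  have h3 : (fun x => √(‖Ψ x‖ ^ 2)) = fun x => ‖Ψ x‖ := by
    funext y; exact Real.sqrt_sq (norm_nonneg _)
  rw [h3] at h2
  have h4 : √(‖Ψ x‖ ^ 2) = ‖Ψ x‖ := Real.sqrt_sq (norm_nonneg _)
  rw [h4] at h2
  have h5 : 2 * inner ℝ (Ψ x) (Ψ' x) / (2 * ‖Ψ x‖) = radD Ψ Ψ' x := by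
    unfold radD; field_simp
  rwa [h5] at h2

theorem hasDerivAt_ang (hd : ∀ x, HasDerivAt Ψ (Ψ' x) x) (hne : ∀ x, Ψ x ≠ 0) (x : ℝ) :
    HasDerivAt (ang Ψ) (angD Ψ Ψ' x) x := by
  have hpos : ‖Ψ x‖ ≠ 0 := norm_ne_zero_iff.mpr (hne x)
  have h1 : HasDerivAt (fun x => (‖Ψ x‖)⁻¹) (-(radD Ψ Ψ' x) / ‖Ψ x‖ ^ 2) x :=
    (hasDerivAt_norm_curve hd hne x).inv hpos
  have h2 := h1.smul (hd x)
  have h3 : (‖Ψ x‖)⁻¹ • Ψ' x + (-(radD Ψ Ψ' x) / ‖Ψ x‖ ^ 2) • Ψ x = angD Ψ Ψ' x := by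
    unfold angD ang
    rw [smul_sub, smul_smul, smul_smul, sub_eq_add_neg, ← neg_smul]
    congr 2
    field_simp
  rw [h3] at h2
  exact h2

theorem norm_ang (hne : ∀ x, Ψ x ≠ 0) (x : ℝ) : ‖ang Ψ x‖ = 1 := by
  unfold ang
  rw [norm_smul, norm_inv, norm_norm]
  exact inv_mul_cancel₀ (norm_ne_zero_iff.mpr (hne x))

theorem inner_ang_self (hne : ∀ x, Ψ x ≠ 0) (x : ℝ) : inner ℝ (ang Ψ x) (ang Ψ x) = 1 := by
  rw [real_inner_self_eq_norm_sq, norm_ang hne]; norm_num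

theorem inner_ang_deriv (x : ℝ) : inner ℝ (ang Ψ x) (Ψ' x) = radD Ψ Ψ' x := by
  unfold ang radD
  rw [inner_smul_left]
  simp only [conj_trivial]
  rw [div_eq_inv_mul]

theorem inner_ang_angD (hne : ∀ x, Ψ x ≠ 0) (x : ℝ) : inner ℝ (ang Ψ x) (angD Ψ Ψ' x) = 0 := by
  unfold angD
  rw [inner_smul_right, inner_sub_right, inner_smul_right, inner_ang_self hne, inner_ang_deriv]
  ring

theorem energy_split (hne : ∀ x, Ψ x ≠ 0) (x : ℝ) :
    ‖Ψ' x‖ ^ 2 = radD Ψ Ψ' x ^ 2 + ‖Ψ x‖ ^ 2 * ‖angD Ψ Ψ' x‖ ^ 2 := by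
  have hpos : ‖Ψ x‖ ≠ 0 := norm_ne_zero_iff.mpr (hne x)
  have h1 : ‖Ψ x‖ ^ 2 * ‖angD Ψ Ψ' x‖ ^ 2 = ‖Ψ' x - radD Ψ Ψ' x • ang Ψ x‖ ^ 2 := by
    unfold angD
    rw [norm_smul, norm_inv, norm_norm, mul_pow, ← mul_assoc]
    rw [inv_pow, mul_inv_cancel₀ (pow_ne_zero 2 hpos), one_mul]
  rw [h1, norm_sub_sq_real, norm_smul, mul_pow, norm_ang hne, inner_smul_right,
    real_inner_comm, inner_ang_deriv]
  simp only [Real.norm_eq_abs, sq_abs]
  ring

theorem continuous_curve (hd : ∀ x, HasDerivAt Ψ (Ψ' x) x) : Continuous Ψ :=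
  continuous_iff_continuousAt.mpr fun x => (hd x).continuousAt

theorem continuous_radD (hd : ∀ x, HasDerivAt Ψ (Ψ' x) x) (hc : Continuous Ψ')
    (hne : ∀ x, Ψ x ≠ 0) : Continuous (radD Ψ Ψ') := by
  have h := continuous_curve hd
  unfold radD
  exact (h.inner hc).div h.norm fun x => norm_ne_zero_iff.mpr (hne x)

theorem continuous_ang (hd : ∀ x, HasDerivAt Ψ (Ψ' x) x) (hne : ∀ x, Ψ x ≠ 0) :
    Continuous (ang Ψ) := by
  have h := continuous_curve hd
  unfold ang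
  exact (h.norm.inv₀ fun x => norm_ne_zero_iff.mpr (hne x)).smul h

theorem continuous_angD (hd : ∀ x, HasDerivAt Ψ (Ψ' x) x) (hc : Continuous Ψ')
    (hne : ∀ x, Ψ x ≠ 0) : Continuous (angD Ψ Ψ') := by
  have h := continuous_curve hd
  unfold angD
  exact (h.norm.inv₀ fun x => norm_ne_zero_iff.mpr (hne x)).smul
    (hc.sub ((continuous_radD hd hc hne).smul (continuous_ang hd hne)))

/-- `Ψ = ‖Ψ‖ e`. -/
theorem curve_eq_smul_ang (hne : ∀ x, Ψ x ≠ 0) (x : ℝ) : Ψ x = ‖Ψ x‖ • ang Ψ x := by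
  unfold ang
  rw [smul_smul, mul_inv_cancel₀ (norm_ne_zero_iff.mpr (hne x)), one_smul]

end basics

/-- The arclength of the angular curve, measured from `0`. -/
noncomputable def arc (Ψ Ψ' : ℝ → E) (x : ℝ) : ℝ := ∫ t in (0 : ℝ)..x, ‖angD Ψ Ψ' t‖

section arc

variable {Ψ Ψ' : ℝ → E}

theorem hasDerivAt_arc (hd : ∀ x, HasDerivAt Ψ (Ψ' x) x) (hc : Continuous Ψ')
    (hne : ∀ x, Ψ x ≠ 0) (x : ℝ) : HasDerivAt (arc Ψ Ψ') ‖angD Ψ Ψ' x‖ x := by
  have hs : Continuous fun t => ‖angD Ψ Ψ' t‖ := (continuous_angD hd hc hne).norm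
  exact (hs.integral_hasStrictDerivAt 0 x).hasDerivAt

theorem continuous_arc (hd : ∀ x, HasDerivAt Ψ (Ψ' x) x) (hc : Continuous Ψ')
    (hne : ∀ x, Ψ x ≠ 0) : Continuous (arc Ψ Ψ') :=
  continuous_iff_continuousAt.mpr fun x => (hasDerivAt_arc hd hc hne x).continuousAt

theorem monotone_arc (hd : ∀ x, HasDerivAt Ψ (Ψ' x) x) (hc : Continuous Ψ')
    (hne : ∀ x, Ψ x ≠ 0) : Monotone (arc Ψ Ψ') := by
  apply monotone_of_deriv_nonneg
  · exact fun x => (hasDerivAt_arc hd hc hne x).differentiableAt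
  · intro x
    rw [(hasDerivAt_arc hd hc hne x).deriv]
    exact norm_nonneg _

end arc

/-- The key estimate for the derivative of the inner product with a fixed unit vector. -/
theorem inner_deriv_sq_le {e e' e0 : E} (he : ‖e‖ = 1) (he0 : ‖e0‖ = 1)
    (horth : inner ℝ e e' = 0) :
    inner ℝ e' e0 ^ 2 ≤ ‖e'‖ ^ 2 * (1 - inner ℝ e e0 ^ 2) := by
  set g := inner ℝ e e0 with hg
  have h1 : inner ℝ e' e0 = inner ℝ e' (e0 - g • e) := by
    rw [inner_sub_right, inner_smul_right, real_inner_comm e e', horth]; ring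
  have h2 : ‖e0 - g • e‖ ^ 2 = 1 - g ^ 2 := by
    rw [norm_sub_sq_real, norm_smul, mul_pow, he, he0, inner_smul_right, real_inner_comm e e0]
    simp only [Real.norm_eq_abs, sq_abs]
    rw [← hg]
    ring
  rw [h1, ← h2, ← mul_pow]
  have h3 := abs_real_inner_le_norm e' (e0 - g • e)
  have h4 : |inner ℝ e' (e0 - g • e)| ^ 2 = inner ℝ e' (e0 - g • e) ^ 2 := sq_abs _
  rw [← h4]
  gcongr

/-- Angle and arclength: if `e` is a unit speed-`s` curve on the sphere, then the inner product of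
two of its points is at least the cosine of the length between them. -/
theorem cos_le_inner_of_arc {e e' : ℝ → E} {σ : ℝ → ℝ}
    (hde : ∀ x, HasDerivAt e (e' x) x) (hunit : ∀ x, ‖e x‖ = 1)
    (horth : ∀ x, inner ℝ (e x) (e' x) = 0)
    (hdσ : ∀ x, HasDerivAt σ ‖e' x‖ x) (hσ : Monotone σ)
    {a b : ℝ} (hab : a ≤ b) (hlen : σ b - σ a < π / 2) :
    Real.cos (σ b - σ a) ≤ inner ℝ (e b) (e a) := by
  -- comparison with slightly faster speed
  have key : ∀ ε : ℝ, 0 < ε → (1 + ε) * (σ b - σ a) + ε * (b - a) + ε < π →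
      Real.cos ((1 + ε) * (σ b - σ a) + ε * (b - a) + ε) ≤ inner ℝ (e b) (e a) := by
    intro ε hε hsmall
    set τ : ℝ → ℝ := fun x => (1 + ε) * (σ x - σ a) + ε * (x - a) + ε with hτ
    have hτd : ∀ x, HasDerivAt τ ((1 + ε) * ‖e' x‖ + ε) x := by
      intro x
      have h1 := (((hdσ x).sub_const (σ a)).const_mul (1 + ε))
      have h2 := ((hasDerivAt_id x).sub_const a).const_mul ε
      have h3 := (h1.add h2).add_const ε
      simpa [hτ, id] using h3
    have hτmono : ∀ x, x ≤ b → τ x ≤ τ b := by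
      intro x hx
      simp only [hτ]
      have h1 := hσ hx
      have : (1 + ε) * (σ x - σ a) ≤ (1 + ε) * (σ b - σ a) :=
        mul_le_mul_of_nonneg_left (by linarith) (by linarith)
      have h2 : ε * (x - a) ≤ ε * (b - a) := mul_le_mul_of_nonneg_left (by linarith) hε.le
      linarith
    have hτlow : ∀ x, a ≤ x → ε ≤ τ x := by
      intro x hx
      simp only [hτ]
      have h1 := hσ hx
      have : 0 ≤ (1 + ε) * (σ x - σ a) := mul_nonneg (by linarith) (by linarith)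
      have h2 : 0 ≤ ε * (x - a) := mul_nonneg hε.le (by linarith)
      linarith
    -- apply the fencing lemma
    have hfence := image_le_of_deriv_right_lt_deriv_boundary
      (f := fun x => -inner ℝ (e x) (e a)) (f' := fun x => -inner ℝ (e' x) (e a))
      (a := a) (b := b)
      (B := fun x => -Real.cos (τ x))
      (B' := fun x => Real.sin (τ x) * ((1 + ε) * ‖e' x‖ + ε))
      ?_ ?_ ?_ ?_ ?_
    · have := hfence (right_mem_Icc.mpr hab)
      simp only [neg_le_neg_iff] at this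
      simpa [hτ] using this
    · -- continuity
      apply Continuous.continuousOn
      have : Continuous e := continuous_iff_continuousAt.mpr fun x => (hde x).continuousAt
      exact (this.inner continuous_const).neg
    · intro x _
      have h1 : HasDerivAt (fun y => inner ℝ (e y) (e a)) (inner ℝ (e' x) (e a)) x :=
        (hde x).inner ℝ (hasDerivAt_const x (e a)) |>.congr_deriv (by simp)
      exact h1.neg.hasDerivWithinAt
    · -- initial value
      simp only [neg_le_neg_iff, hτ]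
      have h1 : inner ℝ (e a) (e a) = 1 := by
        rw [real_inner_self_eq_norm_sq, hunit]; norm_num
      rw [h1]
      exact Real.cos_le_one _
    · intro x
      have h1 := (hτd x).cos
      exact h1.neg.congr_deriv (by ring)
    · -- the boundary condition
      intro x hx heq
      simp only [neg_inj] at heq
      have hτx1 : ε ≤ τ x := hτlow x hx.1
      have hτx2 : τ x < π := lt_of_le_of_lt (hτmono x hx.2.le) (by simpa [hτ] using hsmall)
      have hsin : 0 < Real.sin (τ x) := Real.sin_pos_of_pos_of_lt_pi (by linarith) hτx2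
      have hkey := inner_deriv_sq_le (hunit x) (hunit a) (horth x)
      rw [heq] at hkey
      have h3 : 1 - Real.cos (τ x) ^ 2 = Real.sin (τ x) ^ 2 := by
        have := Real.sin_sq_add_cos_sq (τ x); linarith
      rw [h3, ← mul_pow] at hkey
      have h4 : |inner ℝ (e' x) (e a)| ≤ |‖e' x‖ * Real.sin (τ x)| := sq_le_sq.mp hkey
      rw [abs_of_nonneg (mul_nonneg (norm_nonneg _) hsin.le)] at h4
      have h5 := neg_le_of_abs_le h4
      have h6 : ‖e' x‖ * Real.sin (τ x) < Real.sin (τ x) * ((1 + ε) * ‖e' x‖ + ε) := by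
        have : 0 ≤ ‖e' x‖ := norm_nonneg _
        have h7 : ‖e' x‖ < (1 + ε) * ‖e' x‖ + ε := by nlinarith
        nlinarith
      linarith
  -- pass to the limit
  have hlim : Tendsto (fun ε : ℝ => Real.cos ((1 + ε) * (σ b - σ a) + ε * (b - a) + ε))
      (𝓝[>] 0) (𝓝 (Real.cos (σ b - σ a))) := by
    have hc : Continuous fun ε : ℝ => Real.cos ((1 + ε) * (σ b - σ a) + ε * (b - a) + ε) := by
      fun_prop
    have := hc.tendsto 0
    simp only [add_zero, one_mul, zero_mul] at this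
    exact this.mono_left nhdsWithin_le_nhds
  have hev : ∀ᶠ ε in 𝓝[>] (0 : ℝ), Real.cos ((1 + ε) * (σ b - σ a) + ε * (b - a) + ε) ≤
      inner ℝ (e b) (e a) := by
    have hc : Continuous fun ε : ℝ => (1 + ε) * (σ b - σ a) + ε * (b - a) + ε := by fun_prop
    have h0 : (fun ε : ℝ => (1 + ε) * (σ b - σ a) + ε * (b - a) + ε) 0 < π := by
      have := Real.pi_pos
      simp only [add_zero, one_mul, zero_mul]
      linarith
    have h1 : ∀ᶠ ε in 𝓝 (0 : ℝ), (1 + ε) * (σ b - σ a) + ε * (b - a) + ε < π :=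
      hc.continuousAt.eventually_lt continuousAt_const h0
    filter_upwards [h1.filter_mono nhdsWithin_le_nhds, self_mem_nhdsWithin] with ε h2 h3
    exact key ε h3 h2
  exact le_of_tendsto hlim hev

end Vale.Agent.Lib.P371W
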