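import Vale.Agent.Lib.P371W.Avg

/-!
The window inequality for orthonormal families in `H¹(ℝ; ℂ)`.
-/

open MeasureTheory Set Filter Topology
open scoped Real ComplexConjugate

namespace Vale.Agent.Lib.P371W

open Vale.Agent.Lib.P371

variable {N : ℕ}

/-- The curve of running averages. -/
noncomputable def curve (h : ℝ) (ψ : Fin N → ℝ → ℂ) (x : ℝ) : EuclideanSpace ℂ (Fin N) :=
  WithLp.toLp 2 fun j => avg h (ψ j) x

theorem inner_eq (x v : EuclideanSpace ℂ (Fin N)) :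
    inner ℝ x v = (∑ j, conj (v j) * x j).re := by
  rw [PiLp.inner_apply, Complex.re_sum]
  refine Finset.sum_congr rfl fun j _ => ?_
  simp [Complex.inner]

theorem norm_curve_sq (h : ℝ) (ψ : Fin N → ℝ → ℂ) (x : ℝ) :
    ‖curve h ψ x‖ ^ 2 = ∑ j, ‖avg h (ψ j) x‖ ^ 2 := by
  rw [EuclideanSpace.norm_sq_eq]
  rfl

theorem avg_sum (h : ℝ) {ψ : Fin N → ℝ → ℂ} (hi : ∀ j a b, IntervalIntegrable (ψ j) volume a b)
    (c : Fin N → ℂ) (x : ℝ) :
    avg h (fun y => ∑ j, c j * ψ j y) x = ∑ j, c j * avg h (ψ j) x := by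
  unfold avg
  rw [intervalIntegral.integral_finsetSum fun j _ => (hi j _ _).const_mul _, Finset.mul_sum]
  refine Finset.sum_congr rfl fun j _ => ?_
  rw [intervalIntegral.integral_const_mul]
  ring

section family

variable {ψ ψ' : Fin N → ℝ → ℂ}

theorem integrable_conj_mul (hψ : ∀ j, IsH1 (ψ j) (ψ' j)) (j l : Fin N) :
    Integrable fun x => conj (ψ j x) * ψ l x := by
  have h1 : MemLp (fun x => conj (ψ j x)) 2 volume := (hψ j).memLp.star
  exact h1.integrable_mul (hψ l).memLp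

theorem orth_sum (hψ : ∀ j, IsH1 (ψ j) (ψ' j))
    (horth : ∀ j l, ∫ x, conj (ψ j x) * ψ l x = if j = l then 1 else 0) (c : Fin N → ℂ) :
    MemLp (fun x => ∑ j, c j * ψ j x) 2 volume ∧
      ∫ x, ‖∑ j, c j * ψ j x‖ ^ 2 = ∑ j, ‖c j‖ ^ 2 := by
  have hmem : MemLp (fun x => ∑ j, c j * ψ j x) 2 volume :=
    memLp_finsetSum _ fun j _ => (hψ j).memLp.const_mul (c j)
  refine ⟨hmem, ?_⟩
  have h1 : ∀ x, ((‖∑ j, c j * ψ j x‖ ^ 2 : ℝ) : ℂ) =
      ∑ j, ∑ l, (conj (c j) * c l) * (conj (ψ j x) * ψ l x) := by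
    intro x
    rw [Complex.ofReal_pow, ← Complex.conj_mul', map_sum, Finset.sum_mul_sum]
    refine Finset.sum_congr rfl fun j _ => Finset.sum_congr rfl fun l _ => ?_
    rw [map_mul]
    ring
  have h2 : ((∫ x, ‖∑ j, c j * ψ j x‖ ^ 2 : ℝ) : ℂ) = ((∑ j, ‖c j‖ ^ 2 : ℝ) : ℂ) := by
    rw [← integral_complex_ofReal]
    simp_rw [h1]
    rw [integral_finsetSum _ fun j _ =>
      integrable_finsetSum _ fun l _ => (integrable_conj_mul hψ j l).const_mul _]
    push_cast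
    refine Finset.sum_congr rfl fun j _ => ?_
    rw [integral_finsetSum _ fun l _ => (integrable_conj_mul hψ j l).const_mul _]
    simp_rw [integral_const_mul, horth]
    simp [Complex.conj_mul']
  exact_mod_cast h2

theorem hasDerivAt_curve (hψ : ∀ j, IsH1 (ψ j) (ψ' j)) (h x : ℝ) :
    HasDerivAt (curve h ψ) (curve h ψ' x) x := by
  have h1 : HasDerivAt (fun x => WithLp.ofLp (curve h ψ x)) (WithLp.ofLp (curve h ψ' x)) x :=
    hasDerivAt_pi.2 fun j => hasDerivAt_avg (hψ j) x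
  exact ((PiLp.continuousLinearEquiv 2 ℝ (fun _ : Fin N => ℂ)).symm.toContinuousLinearMap.hasFDerivAt
    ).comp_hasDerivAt x h1

theorem continuous_curve_deriv (hψ : ∀ j, IsH1 (ψ j) (ψ' j)) (h : ℝ) :
    Continuous (curve h ψ') := by
  have h1 : Continuous fun x => WithLp.ofLp (curve h ψ' x) :=
    continuous_pi fun j => continuous_avg_deriv (hψ j) h
  exact (PiLp.continuousLinearEquiv 2 ℝ (fun _ : Fin N => ℂ)).symm.continuous.comp h1

theorem frame_curve (hψ : ∀ j, IsH1 (ψ j) (ψ' j))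
    (horth : ∀ j l, ∫ x, conj (ψ j x) * ψ l x = if j = l then 1 else 0) {h : ℝ} (hh : 0 < h)
    (v : EuclideanSpace ℂ (Fin N)) :
    ∫ x, inner ℝ (curve h ψ x) v ^ 2 ≤ 1 * ‖v‖ ^ 2 := by
  have hi : ∀ j a b, IntervalIntegrable (ψ j) volume a b := fun j a b =>
    (continuous_of_isH1 (hψ j)).intervalIntegrable a b
  obtain ⟨hmem, hnorm⟩ := orth_sum hψ horth (fun j => conj (v j))
  obtain ⟨h1, h2⟩ := avg_contraction hmem hh
  have hpt : ∀ x, inner ℝ (curve h ψ x) v ^ 2 ≤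
      ‖avg h (fun y => ∑ j, conj (v j) * ψ j y) x‖ ^ 2 := by
    intro x
    rw [avg_sum h hi, inner_eq, ← sq_abs]
    exact pow_le_pow_left₀ (abs_nonneg _) (Complex.abs_re_le_norm _) 2
  have hcont : Continuous fun x => inner ℝ (curve h ψ x) v ^ 2 := by
    have hc : Continuous (curve h ψ) :=
      continuous_iff_continuousAt.mpr fun x => (hasDerivAt_curve hψ h x).continuousAt
    exact (hc.inner continuous_const).pow 2
  have hint : Integrable fun x => inner ℝ (curve h ψ x) v ^ 2 := by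
    refine h1.mono' hcont.aestronglyMeasurable (Eventually.of_forall fun x => ?_)
    rw [Real.norm_of_nonneg (sq_nonneg _)]
    exact hpt x
  have h3 := integral_mono hint h1 hpt
  have h4 : ‖v‖ ^ 2 = ∑ j, ‖conj (v j)‖ ^ 2 := by
    rw [EuclideanSpace.norm_sq_eq]
    simp
  rw [one_mul, h4, ← hnorm]
  exact h3.trans h2

theorem deriv_curve_le (hψ : ∀ j, IsH1 (ψ j) (ψ' j)) {h : ℝ} (hh : 0 < h) :
    Integrable (fun x => ‖curve h ψ' x‖ ^ 2) ∧
      ∫ x, ‖curve h ψ' x‖ ^ 2 ≤ ∑ j, ∫ x, ‖ψ' j x‖ ^ 2 := by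
  simp_rw [norm_curve_sq]
  have hi : ∀ j ∈ (Finset.univ : Finset (Fin N)), Integrable fun x => ‖avg h (ψ' j) x‖ ^ 2 :=
    fun j _ => (avg_contraction (hψ j).memLp_deriv hh).1
  refine ⟨integrable_finsetSum _ hi, ?_⟩
  rw [integral_finsetSum _ hi]
  exact Finset.sum_le_sum fun j _ => (avg_contraction (hψ j).memLp_deriv hh).2

theorem integrable_curve_sq (hψ : ∀ j, IsH1 (ψ j) (ψ' j)) {h : ℝ} (hh : 0 < h) :
    Integrable fun x => ‖curve h ψ x‖ ^ 2 := by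
  simp_rw [norm_curve_sq]
  exact integrable_finsetSum _ fun j _ => (avg_contraction (hψ j).memLp hh).1

theorem tendsto_rho (hψ : ∀ j, IsH1 (ψ j) (ψ' j)) (x : ℝ) :
    Tendsto (fun h : ℝ => ‖curve h ψ x‖ ^ 2) (𝓝[>] 0) (𝓝 (∑ j, ‖ψ j x‖ ^ 2)) := by
  simp_rw [norm_curve_sq]
  exact tendsto_finsetSum _ fun j _ => (tendsto_avg (hψ j) x).norm.pow 2

/-- The window inequality for an orthonormal family in `H¹(ℝ; ℂ)`. -/
theorem dual_family (hψ : ∀ j, IsH1 (ψ j) (ψ' j))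
    (horth : ∀ j l, ∫ x, conj (ψ j x) * ψ l x = if j = l then 1 else 0)
    {P : ℝ → ℝ} (hPc : Continuous P) (hP : ∀ r, 0 ≤ r → r ≤ 1 → P (r ^ 3) ≤ r ^ 4)
    {C : ℝ} (hC : 0 < C)
    (hK : 0 < π * (3 / C ^ 2 * (∫ t in (-(π / 4))..(π / 4), P (Real.cos (2 * t))) - 2 / C ^ 3 * 1)) :
    Integrable (fun x => (∑ j, ‖ψ j x‖ ^ 2) ^ 3) ∧
    π * (3 / C ^ 2 * (∫ t in (-(π / 4))..(π / 4), P (Real.cos (2 * t))) - 2 / C ^ 3 * 1) *
      (∫ x, (∑ j, ‖ψ j x‖ ^ 2) ^ 3) ≤ ∑ j, ∫ x, ‖ψ' j x‖ ^ 2 := by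
  set K := π * (3 / C ^ 2 * (∫ t in (-(π / 4))..(π / 4), P (Real.cos (2 * t))) - 2 / C ^ 3 * 1)
    with hKdef
  set T := ∑ j, ∫ x, ‖ψ' j x‖ ^ 2 with hT
  have hTnn : 0 ≤ T := Finset.sum_nonneg fun j _ => integral_nonneg fun x => sq_nonneg _
  have hstep : ∀ h : ℝ, 0 < h → Integrable (fun x => (‖curve h ψ x‖ ^ 2) ^ 3) ∧
      (∫ x, (‖curve h ψ x‖ ^ 2) ^ 3) ≤ T / K := by
    intro h hh
    obtain ⟨h1, h2⟩ := core_C1 (Ψ := curve h ψ) (Ψ' := curve h ψ') (hasDerivAt_curve hψ h)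
      (continuous_curve_deriv hψ h) (integrable_curve_sq hψ hh)
      (deriv_curve_le hψ hh).1 zero_le_one (frame_curve hψ horth hh) hPc hP hC
    refine ⟨h1, ?_⟩
    rw [le_div_iff₀ hK, mul_comm]
    exact h2.trans (deriv_curve_le hψ hh).2
  -- Fatou along `1 / (n + 1)`
  let hn : ℕ → ℝ := fun n => 1 / ((n : ℝ) + 1)
  have hnpos : ∀ n, 0 < hn n := fun n => by
    simp only [hn]
    positivity
  have hnlim : Tendsto hn atTop (𝓝[>] 0) :=
    tendsto_nhdsWithin_of_tendsto_nhds_of_eventually_within _ tendsto_one_div_add_atTop_nhds_zero_nat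
      (Eventually.of_forall hnpos)
  let f : ℕ → ℝ → ENNReal := fun n x => ENNReal.ofReal ((‖curve (hn n) ψ x‖ ^ 2) ^ 3)
  have hfmeas : ∀ n, Measurable (f n) := by
    intro n
    have hc : Continuous (curve (hn n) ψ) :=
      continuous_iff_continuousAt.mpr fun x => (hasDerivAt_curve hψ _ x).continuousAt
    exact (((hc.norm.pow 2).pow 3).measurable).ennreal_ofReal
  have hflim : ∀ x, Tendsto (fun n => f n x) atTop
      (𝓝 (ENNReal.ofReal ((∑ j, ‖ψ j x‖ ^ 2) ^ 3))) := by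
    intro x
    have h1 := ((tendsto_rho hψ x).comp hnlim).pow 3
    exact ENNReal.continuous_ofReal.continuousAt.tendsto.comp h1
  have hfbound : ∀ n, ∫⁻ x, f n x ≤ ENNReal.ofReal (T / K) := by
    intro n
    obtain ⟨h1, h2⟩ := hstep (hn n) (hnpos n)
    rw [← ofReal_integral_eq_lintegral_ofReal h1 (Eventually.of_forall fun x => by
      simp only [Pi.zero_apply]; positivity)]
    exact ENNReal.ofReal_le_ofReal h2
  have hfatou : ∫⁻ x, ENNReal.ofReal ((∑ j, ‖ψ j x‖ ^ 2) ^ 3) ≤ ENNReal.ofReal (T / K) := by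
    calc ∫⁻ x, ENNReal.ofReal ((∑ j, ‖ψ j x‖ ^ 2) ^ 3)
        = ∫⁻ x, liminf (fun n => f n x) atTop := by
          refine lintegral_congr fun x => ?_
          exact (hflim x).liminf_eq.symm
      _ ≤ liminf (fun n => ∫⁻ x, f n x) atTop := lintegral_liminf_le hfmeas
      _ ≤ ENNReal.ofReal (T / K) := by
          refine liminf_le_of_le (by isBoundedDefault) fun b hb => ?_
          obtain ⟨n, hn'⟩ := hb.exists
          exact hn'.trans (hfbound n)
  have hrhoc : Continuous fun x => (∑ j, ‖ψ j x‖ ^ 2) ^ 3 :=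
    (continuous_finsetSum _ fun j _ => (continuous_of_isH1 (hψ j)).norm.pow 2).pow 3
  have hnn : 0 ≤ᵐ[volume] fun x => (∑ j, ‖ψ j x‖ ^ 2) ^ 3 :=
    Eventually.of_forall fun x => by
      simp only [Pi.zero_apply]
      positivity
  have hint : Integrable fun x => (∑ j, ‖ψ j x‖ ^ 2) ^ 3 := by
    refine ⟨hrhoc.aestronglyMeasurable, ?_⟩
    rw [hasFiniteIntegral_iff_ofReal hnn]
    exact hfatou.trans_lt ENNReal.ofReal_lt_top
  refine ⟨hint, ?_⟩
  have h1 := ofReal_integral_eq_lintegral_ofReal hint hnn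
  rw [← h1] at hfatou
  have hTK : 0 ≤ T / K := div_nonneg hTnn hK.le
  have h2 := (ENNReal.ofReal_le_ofReal_iff hTK).mp hfatou
  rw [le_div_iff₀ hK, mul_comm] at h2
  exact h2

end family

end Vale.Agent.Lib.P371W
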