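import Vale.Agent.Lib.P371W.Family
import Vale.Agent.Lib.P371W.Numerics

/-!
The exact constant of the window inequality and the eigenvalue-sum bound for scalar potentials.
-/

open MeasureTheory Set Filter Topology
open scoped Real ComplexConjugate

namespace Vale.Agent.Lib.P371W

open Vale.Agent.Lib.P371

/-- The integral `∫_{-π/4}^{π/4} cos(2t)^{4/3} dt`. -/
noncomputable def I4 : ℝ := ∫ t in (-(π / 4))..(π / 4), Real.cos (2 * t) ^ (4 / 3 : ℝ)

/-- The constant of the kinetic energy inequality. -/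
noncomputable def K0 : ℝ := π * I4 ^ 3

theorem cos_two_nonneg {t : ℝ} (ht : t ∈ uIcc (-(π / 4)) (π / 4)) : 0 ≤ Real.cos (2 * t) := by
  rw [uIcc_of_le (by linarith [Real.pi_pos])] at ht
  exact Real.cos_nonneg_of_neg_pi_div_two_le_of_le (by linarith [ht.1]) (by linarith [ht.2])

theorem cube_rpow {r : ℝ} (hr : 0 ≤ r) : (r ^ 3) ^ (4 / 3 : ℝ) = r ^ 4 := by
  rw [← Real.rpow_natCast r 3, ← Real.rpow_mul hr, ← Real.rpow_natCast r 4]
  norm_num

theorem I4_eq_abs :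
    ∫ t in (-(π / 4))..(π / 4), |Real.cos (2 * t)| ^ (4 / 3 : ℝ) = I4 := by
  unfold I4
  refine intervalIntegral.integral_congr fun t ht => ?_
  rw [abs_of_nonneg (cos_two_nonneg ht)]

theorem continuous_abs_rpow : Continuous fun c : ℝ => |c| ^ (4 / 3 : ℝ) :=
  continuous_abs.rpow_const fun _ => Or.inr (by norm_num)

theorem I4_lower : (91043 / 100000 : ℝ) ≤ I4 := by
  refine integral_poly_lower.trans ?_
  have hle : -(π / 4) ≤ π / 4 := by linarith [Real.pi_pos]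
  rw [← I4_eq_abs]
  refine intervalIntegral.integral_mono_on hle ?_ ?_ ?_
  · refine Continuous.intervalIntegrable ?_ _ _
    unfold poly
    fun_prop
  · refine Continuous.intervalIntegrable ?_ _ _
    exact continuous_abs_rpow.comp (by fun_prop)
  · intro t ht
    have hc := cos_two_nonneg (t := t) (by rwa [uIcc_of_le hle])
    rw [abs_of_nonneg hc]
    -- cube root
    set r := Real.cos (2 * t) ^ (1 / 3 : ℝ) with hr
    have hr0 : 0 ≤ r := Real.rpow_nonneg hc _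
    have hr3 : r ^ 3 = Real.cos (2 * t) := by
      rw [hr, ← Real.rpow_natCast, ← Real.rpow_mul hc]
      norm_num
    have hr1 : r ≤ 1 := Real.rpow_le_one hc (Real.cos_le_one _) (by norm_num)
    have h1 := poly_le r hr0 hr1
    rw [hr3] at h1
    rw [← hr3, cube_rpow hr0, hr3]
    exact h1

theorem I4_pos : 0 < I4 := lt_of_lt_of_le (by norm_num) I4_lower

theorem K0_pos : 0 < K0 := mul_pos Real.pi_pos (pow_pos I4_pos 3)

theorem K0_lower : (237 / 100 : ℝ) ≤ K0 := by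
  unfold K0
  have h1 : (91043 / 100000 : ℝ) ^ 3 ≤ I4 ^ 3 := pow_le_pow_left₀ (by norm_num) I4_lower 3
  have h2 := Real.pi_gt_d6
  have h3 : (0 : ℝ) ≤ (91043 / 100000 : ℝ) ^ 3 := by positivity
  nlinarith

variable {N : ℕ} {ψ ψ' : Fin N → ℝ → ℂ}

/-- The kinetic energy inequality with the constant `K0`. -/
theorem kinetic_bound (hψ : ∀ j, IsH1 (ψ j) (ψ' j))
    (horth : ∀ j l, ∫ x, conj (ψ j x) * ψ l x = if j = l then 1 else 0) :
    Integrable (fun x => (∑ j, ‖ψ j x‖ ^ 2) ^ 3) ∧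
      K0 * ∫ x, (∑ j, ‖ψ j x‖ ^ 2) ^ 3 ≤ ∑ j, ∫ x, ‖ψ' j x‖ ^ 2 := by
  have hC : 0 < I4⁻¹ := inv_pos.mpr I4_pos
  have hval : π * (3 / (I4⁻¹) ^ 2 *
      (∫ t in (-(π / 4))..(π / 4), |Real.cos (2 * t)| ^ (4 / 3 : ℝ)) - 2 / (I4⁻¹) ^ 3 * 1) = K0 := by
    rw [I4_eq_abs, K0]
    have := I4_pos.ne'
    field_simp
    ring
  have hP : ∀ r : ℝ, 0 ≤ r → r ≤ 1 → |r ^ 3| ^ (4 / 3 : ℝ) ≤ r ^ 4 := by
    intro r hr _
    rw [abs_of_nonneg (pow_nonneg hr 3), cube_rpow hr]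
  have h := dual_family hψ horth continuous_abs_rpow hP hC (by rw [hval]; exact K0_pos)
  rw [hval] at h
  exact h

/-- The pointwise Young inequality. -/
theorem young_point {w a k : ℝ} (hw : 0 ≤ w) (ha : 0 ≤ a) (hk : 0 < k) :
    w ^ 2 * a ≤ 2 / 3 * (1 / k) * w ^ 3 + k ^ 2 / 3 * a ^ 3 := by
  have h1 : 0 ≤ (w - k * a) ^ 2 * (2 * w + k * a) := by positivity
  have h2 : 3 * k * (w ^ 2 * a) ≤ 2 * w ^ 3 + k ^ 3 * a ^ 3 := by nlinarith
  have h3 : 2 / 3 * (1 / k) * w ^ 3 + k ^ 2 / 3 * a ^ 3 =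
      (2 * w ^ 3 + k ^ 3 * a ^ 3) / (3 * k) := by
    field_simp
  rw [h3, le_div_iff₀ (by positivity)]
  linarith

theorem rpow_three_halves {W : ℝ} (hW : 0 ≤ W) : W ^ (3 / 2 : ℝ) = Real.sqrt W ^ 3 := by
  rw [Real.sqrt_eq_rpow, ← Real.rpow_natCast, ← Real.rpow_mul hW]
  norm_num

/-- The sum bound for scalar potentials with the constant `K0`. -/
theorem sum_bound (hψ : ∀ j, IsH1 (ψ j) (ψ' j))
    (horth : ∀ j l, ∫ x, conj (ψ j x) * ψ l x = if j = l then 1 else 0)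
    {W : ℝ → ℝ} (hW : ∀ x, 0 ≤ W x) (hWm : Measurable W)
    (hWp : Integrable fun x => W x ^ (3 / 2 : ℝ)) :
    (∀ j, Integrable fun x => W x * ‖ψ j x‖ ^ 2) ∧
      (∑ j, ∫ x, W x * ‖ψ j x‖ ^ 2) - ∑ j, ∫ x, ‖ψ' j x‖ ^ 2 ≤
        2 / 3 * (1 / Real.sqrt (3 * K0)) * ∫ x, W x ^ (3 / 2 : ℝ) := by
  obtain ⟨hI, hT⟩ := kinetic_bound hψ horth
  set k := Real.sqrt (3 * K0) with hk
  have hkpos : 0 < k := Real.sqrt_pos.mpr (by linarith [K0_pos])
  have hk2 : k ^ 2 / 3 = K0 := by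
    rw [hk, Real.sq_sqrt (by linarith [K0_pos])]
    ring
  have hpt : ∀ x, W x * (∑ j, ‖ψ j x‖ ^ 2) ≤
      2 / 3 * (1 / k) * W x ^ (3 / 2 : ℝ) + K0 * (∑ j, ‖ψ j x‖ ^ 2) ^ 3 := by
    intro x
    have h1 := young_point (w := Real.sqrt (W x)) (a := ∑ j, ‖ψ j x‖ ^ 2) (Real.sqrt_nonneg _)
      (Finset.sum_nonneg fun j _ => sq_nonneg _) hkpos
    rw [Real.sq_sqrt (hW x), hk2] at h1
    rw [rpow_three_halves (hW x)]
    exact h1
  have hdom : Integrable fun x =>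
      2 / 3 * (1 / k) * W x ^ (3 / 2 : ℝ) + K0 * (∑ j, ‖ψ j x‖ ^ 2) ^ 3 :=
    (hWp.const_mul _).add (hI.const_mul _)
  have hcont : ∀ j, Continuous fun x => ‖ψ j x‖ ^ 2 := fun j =>
    (continuous_of_isH1 (hψ j)).norm.pow 2
  have hinj : ∀ j, Integrable fun x => W x * ‖ψ j x‖ ^ 2 := by
    intro j
    refine hdom.mono' (hWm.aestronglyMeasurable.mul (hcont j).aestronglyMeasurable)
      (Eventually.of_forall fun x => ?_)
    rw [Real.norm_of_nonneg (mul_nonneg (hW x) (sq_nonneg _))]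
    refine le_trans ?_ (hpt x)
    refine mul_le_mul_of_nonneg_left ?_ (hW x)
    exact Finset.single_le_sum (f := fun j => ‖ψ j x‖ ^ 2) (fun j _ => sq_nonneg _)
      (Finset.mem_univ j)
  refine ⟨hinj, ?_⟩
  have hsum : ∑ j, ∫ x, W x * ‖ψ j x‖ ^ 2 = ∫ x, W x * ∑ j, ‖ψ j x‖ ^ 2 := by
    rw [← integral_finsetSum _ fun j _ => hinj j]
    refine integral_congr_ae (Eventually.of_forall fun x => ?_)
    simp only [Finset.mul_sum]
  have hleft : Integrable fun x => W x * ∑ j, ‖ψ j x‖ ^ 2 := by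
    simp only [Finset.mul_sum]
    exact integrable_finsetSum _ fun j _ => hinj j
  have h2 := integral_mono hleft hdom hpt
  rw [integral_add (hWp.const_mul _) (hI.const_mul _), integral_const_mul, integral_const_mul] at h2
  rw [hsum]
  linarith

/-- The constant comparison with the semiclassical constant. -/
theorem const_compare : 2 / 3 * (1 / Real.sqrt (3 * K0)) ≤ 589 / 500 * (2 / (3 * π)) := by
  have hpi := Real.pi_pos
  have hK := K0_pos
  have hs : 0 < Real.sqrt (3 * K0) := Real.sqrt_pos.mpr (by linarith)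
  have h1 : π ≤ 589 / 500 * Real.sqrt (3 * K0) := by
    have h2 : π ^ 2 ≤ (589 / 500 * Real.sqrt (3 * K0)) ^ 2 := by
      rw [mul_pow, Real.sq_sqrt (by linarith), K0]
      have h3 : (91043 / 100000 : ℝ) ^ 3 ≤ I4 ^ 3 := pow_le_pow_left₀ (by norm_num) I4_lower 3
      have h4 := Real.pi_lt_d6
      have h5 : π ≤ (589 / 500) ^ 2 * (3 * I4 ^ 3) := by
        norm_num at h3 h4 ⊢
        linarith
      nlinarith
    exact abs_le_of_sq_le_sq' h2 (by positivity) |>.2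
  have h6 : 2 / 3 * (1 / Real.sqrt (3 * K0)) = 2 / (3 * Real.sqrt (3 * K0)) := by
    field_simp
  rw [h6]
  have h7 : 589 / 500 * (2 / (3 * π)) = 2 * (589 / 500) / (3 * π) := by ring
  rw [h7, div_le_div_iff₀ (by positivity) (by positivity)]
  nlinarith

end Vale.Agent.Lib.P371W
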