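import Mathlib

/-!
Weighted Wirtinger (Dirichlet) inequality on a compact interval, in the form obtained from the
Picone identity with the comparison function `sin (δ + μ ∫ A)`; and the first hitting points of a
monotone continuous function.
-/

open MeasureTheory Set Filter Topology
open scoped Real

namespace Vale.Agent.Lib.P371W

theorem picone_interval {A u u' : ℝ → ℝ} (hA : Continuous A) (hApos : ∀ x, 0 < A x)
    (hu : ∀ x, HasDerivAt u (u' x) x) (hu' : Continuous u') {a b μ δ : ℝ} (hab : a ≤ b)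
    (hμ : 0 ≤ μ) (hδ : 0 < δ) (hδ' : δ < π / 2) (hY : δ + μ * ∫ x in a..b, A x ≤ π - δ) :
    μ ^ 2 * ∫ x in a..b, A x * u x ^ 2 ≤
      (∫ x in a..b, u' x ^ 2 / A x) +
        μ * (Real.cos δ / Real.sin δ) * (u a ^ 2 + u b ^ 2) := by
  have hpi := Real.pi_pos
  have huc : Continuous u := continuous_iff_continuousAt.mpr fun x => (hu x).continuousAt
  set Y : ℝ → ℝ := fun x => δ + μ * ∫ t in a..x, A t with hYdef
  have hYd : ∀ x, HasDerivAt Y (μ * A x) x := by
    intro x
    have h1 : HasDerivAt (fun x => ∫ t in a..x, A t) (A x) x :=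
      (hA.integral_hasStrictDerivAt a x).hasDerivAt
    exact (h1.const_mul μ).const_add δ
  have hint_nonneg : ∀ x, a ≤ x → 0 ≤ ∫ t in a..x, A t := fun x hx =>
    intervalIntegral.integral_nonneg hx fun t _ => (hApos t).le
  have hint_mono : ∀ x, a ≤ x → x ≤ b → (∫ t in a..x, A t) ≤ ∫ t in a..b, A t := by
    intro x hx hxb
    have h1 : (∫ t in a..b, A t) = (∫ t in a..x, A t) + ∫ t in x..b, A t :=
      (intervalIntegral.integral_add_adjacent_intervals (hA.intervalIntegrable _ _)
        (hA.intervalIntegrable _ _)).symm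
    have h2 : 0 ≤ ∫ t in x..b, A t :=
      intervalIntegral.integral_nonneg hxb fun t _ => (hApos t).le
    linarith
  have hYlow : ∀ x, a ≤ x → δ ≤ Y x := by
    intro x hx
    have := mul_nonneg hμ (hint_nonneg x hx)
    simp only [hYdef]; linarith
  have hYup : ∀ x, a ≤ x → x ≤ b → Y x ≤ π - δ := by
    intro x hx hxb
    have := mul_le_mul_of_nonneg_left (hint_mono x hx hxb) hμ
    simp only [hYdef]; linarith
  have hsin : ∀ x, a ≤ x → x ≤ b → 0 < Real.sin (Y x) := by
    intro x hx hxb
    apply Real.sin_pos_of_pos_of_lt_pi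
    · linarith [hYlow x hx]
    · linarith [hYup x hx hxb]
  set B : ℝ → ℝ := fun x => μ * u x ^ 2 * (Real.cos (Y x) / Real.sin (Y x)) with hB
  set B' : ℝ → ℝ := fun x =>
    μ * (2 * u x * u' x) * (Real.cos (Y x) / Real.sin (Y x)) +
      μ * u x ^ 2 * (-(μ * A x) / Real.sin (Y x) ^ 2) with hB'
  have hBd : ∀ x, a ≤ x → x ≤ b → HasDerivAt B (B' x) x := by
    intro x hx hxb
    have hs := hsin x hx hxb
    have h1 : HasDerivAt (fun x => μ * u x ^ 2) (μ * (2 * u x * u' x)) x := by
      have := ((hu x).pow 2).const_mul μ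
      simpa using this
    have h2 : HasDerivAt (fun x => Real.cos (Y x) / Real.sin (Y x))
        (-(μ * A x) / Real.sin (Y x) ^ 2) x := by
      have h3 := ((hYd x).cos).div ((hYd x).sin) hs.ne'
      refine h3.congr_deriv ?_
      have h4 := Real.sin_sq_add_cos_sq (Y x)
      have h5 : -Real.sin (Y x) * (μ * A x) * Real.sin (Y x) -
          Real.cos (Y x) * (Real.cos (Y x) * (μ * A x)) =
          -(μ * A x) * (Real.sin (Y x) ^ 2 + Real.cos (Y x) ^ 2) := by ring
      rw [h5, h4, mul_one]
    exact h1.mul h2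
  -- pointwise bound
  set G : ℝ → ℝ := fun x => u' x ^ 2 / A x - μ ^ 2 * (A x * u x ^ 2) with hG
  have hGc : Continuous G := by
    have : Continuous fun x => u' x ^ 2 / A x :=
      (hu'.pow 2).div hA fun x => (hApos x).ne'
    exact this.sub (continuous_const.mul (hA.mul (huc.pow 2)))
  have hbound : ∀ x, a ≤ x → x ≤ b → B' x ≤ G x := by
    intro x hx hxb
    have hs := hsin x hx hxb
    have hAx := hApos x
    set c := Real.cos (Y x) / Real.sin (Y x) with hc
    have h1 : 1 / Real.sin (Y x) ^ 2 = 1 + c ^ 2 := by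
      have h4 := Real.sin_sq_add_cos_sq (Y x)
      have h5 : 1 + (Real.cos (Y x) / Real.sin (Y x)) ^ 2 =
          (Real.sin (Y x) ^ 2 + Real.cos (Y x) ^ 2) / Real.sin (Y x) ^ 2 := by
        field_simp
      rw [hc, h5, h4]
    have h2 : B' x = μ * (2 * u x * u' x) * c - μ ^ 2 * A x * u x ^ 2 * (1 + c ^ 2) := by
      have h6 : -(μ * A x) / Real.sin (Y x) ^ 2 = -(μ * A x) * (1 + c ^ 2) := by
        rw [← h1]; ring
      simp only [hB']
      rw [h6]
      ring
    have h3 : G x - B' x = (u' x - μ * A x * u x * c) ^ 2 / A x := by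
      rw [h2]
      simp only [hG]
      field_simp
      ring
    have h4 : 0 ≤ (u' x - μ * A x * u x * c) ^ 2 / A x := by positivity
    linarith
  -- the comparison
  have hfence := image_le_of_deriv_right_le_deriv_boundary
    (f := B) (f' := B') (a := a) (b := b)
    (B := fun x => B a + ∫ t in a..x, G t) (B' := G)
    (fun x hx => (hBd x hx.1 hx.2).continuousAt.continuousWithinAt)
    (fun x hx => (hBd x hx.1 hx.2.le).hasDerivWithinAt)
    (by simp)
    (fun x _ => ((hGc.integral_hasStrictDerivAt a x).hasDerivAt.const_add (B a)).continuousAt.continuousWithinAt)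
    (fun x _ => ((hGc.integral_hasStrictDerivAt a x).hasDerivAt.const_add (B a)).hasDerivWithinAt)
    (fun x hx => hbound x hx.1 hx.2.le)
  have hfb : B b ≤ B a + ∫ t in a..b, G t := hfence (right_mem_Icc.mpr hab)
  -- split the integral of G
  have hc1 : Continuous fun x => u' x ^ 2 / A x :=
    (hu'.pow 2).div hA fun x => (hApos x).ne'
  have hc2 : Continuous fun x => A x * u x ^ 2 := hA.mul (huc.pow 2)
  have hGint : (∫ t in a..b, G t) =
      (∫ t in a..b, u' t ^ 2 / A t) - μ ^ 2 * ∫ t in a..b, A t * u t ^ 2 := by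
    have hc3 : Continuous fun x => μ ^ 2 * (A x * u x ^ 2) := continuous_const.mul hc2
    have h := intervalIntegral.integral_sub (μ := volume) (hc1.intervalIntegrable a b)
      (hc3.intervalIntegrable a b)
    simp only [hG]
    rw [h, intervalIntegral.integral_const_mul]
  -- endpoints
  have hYa : Y a = δ := by simp [hYdef]
  have hBa : B a = μ * u a ^ 2 * (Real.cos δ / Real.sin δ) := by simp only [hB, hYa]
  have hsδ : 0 < Real.sin δ := Real.sin_pos_of_pos_of_lt_pi hδ (by linarith)
  have hcδ : 0 ≤ Real.cos δ := Real.cos_nonneg_of_mem_Icc ⟨by linarith, by linarith⟩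
  have hBb : -(μ * u b ^ 2 * (Real.cos δ / Real.sin δ)) ≤ B b := by
    have hs := hsin b hab le_rfl
    have h1 : -(Real.cos δ / Real.sin δ) ≤ Real.cos (Y b) / Real.sin (Y b) := by
      have h2 : 0 ≤ Real.sin (Y b + δ) := by
        apply Real.sin_nonneg_of_nonneg_of_le_pi
        · linarith [hYlow b hab]
        · linarith [hYup b hab le_rfl]
      rw [Real.sin_add] at h2
      rw [neg_le_iff_add_nonneg, div_add_div _ _ hs.ne' hsδ.ne']
      apply div_nonneg _ (by positivity)
      linarith
    have h3 : 0 ≤ μ * u b ^ 2 := by positivity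
    simp only [hB]
    have := mul_le_mul_of_nonneg_left h1 h3
    linarith
  rw [hGint, hBa] at hfb
  nlinarith

/-- First hitting point from the left to the right. -/
theorem exists_right_end {σ : ℝ → ℝ} (hc : Continuous σ) (hm : Monotone σ) {L x₀ R : ℝ}
    (h0 : σ x₀ < L) (hR : x₀ ≤ R) :
    ∃ b, x₀ ≤ b ∧ b ≤ R ∧ (∀ x, x < b → σ x < L) ∧ (∀ x, x ≤ R → σ x < L → x ≤ b) ∧
      (b = R ∨ σ b = L) := by
  by_cases hRL : σ R < L
  · exact ⟨R, hR, le_rfl, fun x hx => lt_of_le_of_lt (hm hx.le) hRL, fun x hx _ => hx,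
      Or.inl rfl⟩
  · have hRL := not_lt.mp hRL
    have hne : (Icc x₀ R ∩ σ ⁻¹' {L}).Nonempty := by
      obtain ⟨y, hy, hyL⟩ := intermediate_value_Icc hR hc.continuousOn ⟨h0.le, hRL⟩
      exact ⟨y, hy, hyL⟩
    have hcomp : IsCompact (Icc x₀ R ∩ σ ⁻¹' {L}) :=
      isCompact_Icc.inter_right (isClosed_singleton.preimage hc)
    obtain ⟨b, hb, hbl⟩ := hcomp.exists_isLeast hne
    refine ⟨b, hb.1.1, hb.1.2, ?_, ?_, Or.inr hb.2⟩
    · intro x hxb
      by_contra hcon
      have hcon := not_lt.mp hcon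
      have hx0 : x₀ ≤ x := by
        by_contra h
        have h := not_le.mp h
        have := hm h.le
        linarith
      obtain ⟨y, hy, hyL⟩ := intermediate_value_Icc hx0 hc.continuousOn ⟨h0.le, hcon⟩
      have hyS : y ∈ Icc x₀ R ∩ σ ⁻¹' {L} := ⟨⟨hy.1, by linarith [hy.2, hb.1.2]⟩, hyL⟩
      have := hbl hyS
      linarith [hy.2]
    · intro x _ hxL
      by_contra hcon
      have hcon := not_le.mp hcon
      have := hm hcon.le
      have hbL : σ b = L := hb.2
      linarith

/-- First hitting point from the right to the left. -/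
theorem exists_left_end {σ : ℝ → ℝ} (hc : Continuous σ) (hm : Monotone σ) {L x₀ R : ℝ}
    (h0 : L < σ x₀) (hR : -R ≤ x₀) :
    ∃ a, -R ≤ a ∧ a ≤ x₀ ∧ (∀ x, a < x → L < σ x) ∧ (∀ x, -R ≤ x → L < σ x → a ≤ x) ∧
      (a = -R ∨ σ a = L) := by
  have hc' : Continuous fun x => -σ (-x) := (hc.comp continuous_neg).neg
  have hm' : Monotone fun x => -σ (-x) := fun x y hxy => neg_le_neg (hm (neg_le_neg hxy))
  have h0' : (fun x => -σ (-x)) (-x₀) < -L := by simpa using h0
  obtain ⟨b, h1, h2, h3, h4, h5⟩ := exists_right_end hc' hm' h0' (by linarith : -x₀ ≤ R)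
  refine ⟨-b, by linarith, by linarith, ?_, ?_, ?_⟩
  · intro x hx
    have := h3 (-x) (by linarith)
    simp only [neg_neg] at this
    linarith
  · intro x hx hxL
    have := h4 (-x) (by linarith) (by simpa using hxL)
    linarith
  · rcases h5 with h | h
    · left; linarith
    · right
      have h' : -σ (- b) = -L := h
      linarith

end Vale.Agent.Lib.P371W
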