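import Vale.Agent.Lib.P371W.Core

/-!
Removal of the nonvanishing hypothesis: one adds a small extra coordinate.
-/

open MeasureTheory Set Filter Topology
open scoped Real

namespace Vale.Agent.Lib.P371W

/-- The auxiliary positive function. -/
noncomputable def etaF (x : ℝ) : ℝ := (1 + x ^ 2)⁻¹

/-- Its derivative. -/
noncomputable def etaD (x : ℝ) : ℝ := -(2 * x) / (1 + x ^ 2) ^ 2

theorem one_add_sq_pos (x : ℝ) : 0 < 1 + x ^ 2 := by positivity

theorem etaF_pos (x : ℝ) : 0 < etaF x := inv_pos.mpr (one_add_sq_pos x)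

theorem hasDerivAt_etaF (x : ℝ) : HasDerivAt etaF (etaD x) x := by
  have h1 : HasDerivAt (fun x : ℝ => 1 + x ^ 2) (2 * x) x := by
    simpa using ((hasDerivAt_id x).pow 2).const_add 1
  exact (h1.inv (one_add_sq_pos x).ne')

theorem continuous_etaF : Continuous etaF :=
  continuous_iff_continuousAt.mpr fun x => (hasDerivAt_etaF x).continuousAt

theorem continuous_etaD : Continuous etaD := by
  unfold etaD
  exact (continuous_const.mul continuous_id).neg.div (by fun_prop)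
    fun x => pow_ne_zero 2 (one_add_sq_pos x).ne'

theorem integrable_etaF_sq : Integrable fun x => etaF x ^ 2 := by
  refine integrable_inv_one_add_sq.mono' (continuous_etaF.pow 2).aestronglyMeasurable
    (Eventually.of_forall fun x => ?_)
  rw [Real.norm_of_nonneg (sq_nonneg _)]
  have h1 := etaF_pos x
  have h2 : etaF x ≤ 1 := by
    unfold etaF
    exact inv_le_one_of_one_le₀ (by nlinarith [sq_nonneg x])
  unfold etaF at *
  nlinarith

theorem integrable_etaD_sq : Integrable fun x => etaD x ^ 2 := by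
  have hdom : Integrable fun x : ℝ => 4 * (1 + x ^ 2)⁻¹ := integrable_inv_one_add_sq.const_mul 4
  refine hdom.mono' (continuous_etaD.pow 2).aestronglyMeasurable
    (Eventually.of_forall fun x => ?_)
  rw [Real.norm_of_nonneg (sq_nonneg _)]
  unfold etaD
  have hp := one_add_sq_pos x
  rw [div_pow, neg_sq, mul_pow, div_le_iff₀ (by positivity)]
  have h1 : 4 * (1 + x ^ 2)⁻¹ * ((1 + x ^ 2) ^ 2) ^ 2 = 4 * (1 + x ^ 2) ^ 3 := by
    field_simp
  rw [h1]
  nlinarith [pow_pos hp 2, pow_pos hp 3, sq_nonneg x, mul_nonneg (sq_nonneg x) (sq_nonneg x),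
    mul_nonneg (mul_nonneg (sq_nonneg x) (sq_nonneg x)) (sq_nonneg x)]

variable {E : Type*} [NormedAddCommGroup E] [InnerProductSpace ℝ E]

/-- The window inequality for a `C¹` curve. -/
theorem core_C1 {Ψ Ψ' : ℝ → E} (hd : ∀ x, HasDerivAt Ψ (Ψ' x) x) (hc : Continuous Ψ')
    (hi : Integrable fun x => ‖Ψ x‖ ^ 2) (hi' : Integrable fun x => ‖Ψ' x‖ ^ 2)
    {Λ : ℝ} (hΛ : 0 ≤ Λ) (hframe : ∀ v : E, ∫ x, inner ℝ (Ψ x) v ^ 2 ≤ Λ * ‖v‖ ^ 2)
    {P : ℝ → ℝ} (hPc : Continuous P) (hP : ∀ r, 0 ≤ r → r ≤ 1 → P (r ^ 3) ≤ r ^ 4)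
    {C : ℝ} (hC : 0 < C) :
    Integrable (fun x => (‖Ψ x‖ ^ 2) ^ 3) ∧
    π * (3 / C ^ 2 * (∫ t in (-(π / 4))..(π / 4), P (Real.cos (2 * t))) - 2 / C ^ 3 * Λ) *
      (∫ x, (‖Ψ x‖ ^ 2) ^ 3) ≤ ∫ x, ‖Ψ' x‖ ^ 2 := by
  have hΨ := continuous_curve hd
  set τ₀ := ∫ x, etaF x ^ 2 with hτ₀
  set τ₁ := ∫ x, etaD x ^ 2 with hτ₁
  have hτ₀nn : 0 ≤ τ₀ := integral_nonneg fun x => sq_nonneg _
  have hτ₁nn : 0 ≤ τ₁ := integral_nonneg fun x => sq_nonneg _
  set IP := ∫ t in (-(π / 4))..(π / 4), P (Real.cos (2 * t)) with hIP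
  -- the perturbed curve
  have key : ∀ ε : ℝ, 0 < ε →
      Integrable (fun x => (‖Ψ x‖ ^ 2 + (ε * etaF x) ^ 2) ^ 3) ∧
      π * (3 / C ^ 2 * IP - 2 / C ^ 3 * ((1 + ε) * Λ + (ε ^ 2 + ε) * τ₀)) *
        (∫ x, (‖Ψ x‖ ^ 2 + (ε * etaF x) ^ 2) ^ 3) ≤
        (∫ x, ‖Ψ' x‖ ^ 2) + ε ^ 2 * τ₁ := by
    intro ε hε
    set Φ : ℝ → WithLp 2 (E × ℝ) := fun x => WithLp.toLp 2 (Ψ x, ε * etaF x) with hΦ
    set Φ' : ℝ → WithLp 2 (E × ℝ) := fun x => WithLp.toLp 2 (Ψ' x, ε * etaD x) with hΦ'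
    have hnorm : ∀ a (b : ℝ), ‖(WithLp.toLp 2 (a, b) : WithLp 2 (E × ℝ))‖ ^ 2 = ‖a‖ ^ 2 + b ^ 2 := by
      intro a b
      rw [WithLp.prod_norm_sq_eq_of_L2]
      simp
    have hdΦ : ∀ x, HasDerivAt Φ (Φ' x) x := by
      intro x
      have h1 : HasDerivAt (fun x => (Ψ x, ε * etaF x)) (Ψ' x, ε * etaD x) x :=
        (hd x).prodMk ((hasDerivAt_etaF x).const_mul ε)
      exact ((WithLp.prodContinuousLinearEquiv 2 ℝ E ℝ).symm.toContinuousLinearMap.hasFDerivAt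
        ).comp_hasDerivAt x h1
    have hcΦ' : Continuous Φ' := by
      have h1 : Continuous fun x => (Ψ' x, ε * etaD x) :=
        hc.prodMk (continuous_const.mul continuous_etaD)
      exact (WithLp.prodContinuousLinearEquiv 2 ℝ E ℝ).symm.continuous.comp h1
    have hneΦ : ∀ x, Φ x ≠ 0 := by
      intro x h0
      have h1 := hnorm (Ψ x) (ε * etaF x)
      rw [show (WithLp.toLp 2 (Ψ x, ε * etaF x) : WithLp 2 (E × ℝ)) = Φ x from rfl, h0,
        norm_zero] at h1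
      have h2 : 0 < (ε * etaF x) ^ 2 := pow_pos (mul_pos hε (etaF_pos x)) 2
      nlinarith [sq_nonneg ‖Ψ x‖]
    have hiΦ : Integrable fun x => ‖Φ x‖ ^ 2 := by
      have h1 : (fun x => ‖Φ x‖ ^ 2) = fun x => ‖Ψ x‖ ^ 2 + ε ^ 2 * etaF x ^ 2 := by
        funext x
        rw [hΦ]
        simp only
        rw [hnorm, mul_pow]
      rw [h1]
      exact hi.add (integrable_etaF_sq.const_mul _)
    have hiΦ' : Integrable fun x => ‖Φ' x‖ ^ 2 := by
      have h1 : (fun x => ‖Φ' x‖ ^ 2) = fun x => ‖Ψ' x‖ ^ 2 + ε ^ 2 * etaD x ^ 2 := by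
        funext x
        rw [hΦ']
        simp only
        rw [hnorm, mul_pow]
      rw [h1]
      exact hi'.add (integrable_etaD_sq.const_mul _)
    have hTΦ : ∫ x, ‖Φ' x‖ ^ 2 = (∫ x, ‖Ψ' x‖ ^ 2) + ε ^ 2 * τ₁ := by
      have h1 : (fun x => ‖Φ' x‖ ^ 2) = fun x => ‖Ψ' x‖ ^ 2 + ε ^ 2 * etaD x ^ 2 := by
        funext x
        rw [hΦ']
        simp only
        rw [hnorm, mul_pow]
      rw [h1, integral_add hi' (integrable_etaD_sq.const_mul _), integral_const_mul]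
    have hAΦ : ∀ x, ‖Φ x‖ ^ 2 = ‖Ψ x‖ ^ 2 + (ε * etaF x) ^ 2 := fun x => by
      rw [hΦ]
      simp only
      rw [hnorm]
    have hframeΦ : ∀ v : WithLp 2 (E × ℝ), ‖v‖ = 1 →
        ∫ x, inner ℝ (Φ x) v ^ 2 ≤ (1 + ε) * Λ + (ε ^ 2 + ε) * τ₀ := by
      intro v hv
      have hv2 : ‖(WithLp.ofLp v).1‖ ^ 2 + (WithLp.ofLp v).2 ^ 2 = 1 := by
        have := WithLp.prod_norm_sq_eq_of_L2 v
        rw [hv] at this
        simpa using this.symm
      set v₁ := (WithLp.ofLp v).1 with hv₁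
      set v₀ := (WithLp.ofLp v).2 with hv₀
      have hin : ∀ x, inner ℝ (Φ x) v = inner ℝ (Ψ x) v₁ + ε * etaF x * v₀ := by
        intro x
        rw [WithLp.prod_inner_apply]
        simp only [hΦ]
        congr 1
        simp [mul_comm]
        left; rfl
      have hi1 : Integrable fun x => inner ℝ (Ψ x) v₁ ^ 2 := by
        have hdom : Integrable fun x => ‖Ψ x‖ ^ 2 * ‖v₁‖ ^ 2 := hi.mul_const _
        refine hdom.mono' ((hΨ.inner continuous_const).pow 2).aestronglyMeasurable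
          (Eventually.of_forall fun x => ?_)
        rw [Real.norm_of_nonneg (sq_nonneg _), ← mul_pow, ← sq_abs]
        exact pow_le_pow_left₀ (abs_nonneg _) (abs_real_inner_le_norm _ _) 2
      have hbound : ∀ x, inner ℝ (Φ x) v ^ 2 ≤
          (1 + ε) * inner ℝ (Ψ x) v₁ ^ 2 + ((ε ^ 2 + ε) * v₀ ^ 2) * etaF x ^ 2 := by
        intro x
        rw [hin]
        set a := inner ℝ (Ψ x) v₁
        set b := etaF x * v₀
        have h1 : ε * etaF x * v₀ = ε * b := by simp only [b]; ring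
        rw [h1]
        have h2 : ((ε ^ 2 + ε) * v₀ ^ 2) * etaF x ^ 2 = (ε ^ 2 + ε) * b ^ 2 := by
          simp only [b]; ring
        rw [h2]
        have h3 : 0 ≤ ε * (a - b) ^ 2 := by positivity
        nlinarith
      have hcontΦ : Continuous Φ :=
        continuous_iff_continuousAt.mpr fun x => (hdΦ x).continuousAt
      have hi2 : Integrable fun x => inner ℝ (Φ x) v ^ 2 := by
        have hdom : Integrable fun x => ‖Φ x‖ ^ 2 * ‖v‖ ^ 2 := hiΦ.mul_const _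
        refine hdom.mono' ((hcontΦ.inner continuous_const).pow 2).aestronglyMeasurable
          (Eventually.of_forall fun x => ?_)
        rw [Real.norm_of_nonneg (sq_nonneg _), ← mul_pow, ← sq_abs]
        exact pow_le_pow_left₀ (abs_nonneg _) (abs_real_inner_le_norm _ _) 2
      have hi3 : Integrable fun x => (1 + ε) * inner ℝ (Ψ x) v₁ ^ 2 +
          ((ε ^ 2 + ε) * v₀ ^ 2) * etaF x ^ 2 :=
        (hi1.const_mul _).add (integrable_etaF_sq.const_mul _)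
      have hmono := integral_mono hi2 hi3 hbound
      rw [integral_add (hi1.const_mul _) (integrable_etaF_sq.const_mul _), integral_const_mul,
        integral_const_mul] at hmono
      have hf1 := hframe v₁
      have h1 : (1 + ε) * ∫ x, inner ℝ (Ψ x) v₁ ^ 2 ≤ (1 + ε) * Λ := by
        refine mul_le_mul_of_nonneg_left ?_ (by linarith)
        refine hf1.trans ?_
        have : ‖v₁‖ ^ 2 ≤ 1 := by nlinarith [sq_nonneg v₀]
        nlinarith
      have h2 : (ε ^ 2 + ε) * v₀ ^ 2 * τ₀ ≤ (ε ^ 2 + ε) * τ₀ := by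
        have h3 : v₀ ^ 2 ≤ 1 := by nlinarith [sq_nonneg ‖v₁‖]
        have h4 : 0 ≤ (ε ^ 2 + ε) * τ₀ := by positivity
        nlinarith
      linarith
    have hcore := core_positive hdΦ hcΦ' hneΦ hiΦ hiΦ' hframeΦ hPc hP hC
    rw [hTΦ] at hcore
    simp_rw [hAΦ] at hcore
    exact hcore
  -- integrability for the unperturbed curve
  have hAc : Continuous fun x => (‖Ψ x‖ ^ 2) ^ 3 := (hΨ.norm.pow 2).pow 3
  have hI : Integrable fun x => (‖Ψ x‖ ^ 2) ^ 3 := by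
    refine (key 1 one_pos).1.mono' hAc.aestronglyMeasurable (Eventually.of_forall fun x => ?_)
    rw [Real.norm_of_nonneg (by positivity)]
    exact pow_le_pow_left₀ (by positivity) (by nlinarith [sq_nonneg (1 * etaF x)]) 3
  refine ⟨hI, ?_⟩
  set I₀ := ∫ x, (‖Ψ x‖ ^ 2) ^ 3 with hI₀
  have hI₀nn : 0 ≤ I₀ := integral_nonneg fun x => by positivity
  set T := ∫ x, ‖Ψ' x‖ ^ 2 with hT
  have hTnn : 0 ≤ T := integral_nonneg fun x => by positivity
  have key2 : ∀ ε : ℝ, 0 < ε →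
      π * (3 / C ^ 2 * IP - 2 / C ^ 3 * ((1 + ε) * Λ + (ε ^ 2 + ε) * τ₀)) * I₀ ≤
        T + ε ^ 2 * τ₁ := by
    intro ε hε
    obtain ⟨h1, h2⟩ := key ε hε
    set K := π * (3 / C ^ 2 * IP - 2 / C ^ 3 * ((1 + ε) * Λ + (ε ^ 2 + ε) * τ₀)) with hK
    by_cases hKnn : 0 ≤ K
    · have h3 : I₀ ≤ ∫ x, (‖Ψ x‖ ^ 2 + (ε * etaF x) ^ 2) ^ 3 := by
        refine integral_mono hI h1 fun x => ?_
        exact pow_le_pow_left₀ (by positivity) (by nlinarith [sq_nonneg (ε * etaF x)]) 3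
      exact (mul_le_mul_of_nonneg_left h3 hKnn).trans h2
    · have h3 : K * I₀ ≤ 0 := mul_nonpos_of_nonpos_of_nonneg (not_le.mp hKnn).le hI₀nn
      have h4 : 0 ≤ ε ^ 2 * τ₁ := by positivity
      linarith
  have hlim1 : Tendsto (fun ε : ℝ =>
      π * (3 / C ^ 2 * IP - 2 / C ^ 3 * ((1 + ε) * Λ + (ε ^ 2 + ε) * τ₀)) * I₀) (𝓝[>] 0)
      (𝓝 (π * (3 / C ^ 2 * IP - 2 / C ^ 3 * Λ) * I₀)) := by
    have hc1 : Continuous fun ε : ℝ =>
        π * (3 / C ^ 2 * IP - 2 / C ^ 3 * ((1 + ε) * Λ + (ε ^ 2 + ε) * τ₀)) * I₀ := by fun_prop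
    have h0 := hc1.tendsto 0
    simp only [add_zero, one_mul, ne_eq, OfNat.ofNat_ne_zero, not_false_eq_true, zero_pow,
      zero_mul] at h0
    exact h0.mono_left nhdsWithin_le_nhds
  have hlim2 : Tendsto (fun ε : ℝ => T + ε ^ 2 * τ₁) (𝓝[>] 0) (𝓝 T) := by
    have hc1 : Continuous fun ε : ℝ => T + ε ^ 2 * τ₁ := by fun_prop
    have h0 := hc1.tendsto 0
    simp only [ne_eq, OfNat.ofNat_ne_zero, not_false_eq_true, zero_pow, zero_mul, add_zero] at h0
    exact h0.mono_left nhdsWithin_le_nhds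
  refine le_of_tendsto_of_tendsto hlim1 hlim2 ?_
  filter_upwards [self_mem_nhdsWithin] with ε hε
  exact key2 ε hε

end Vale.Agent.Lib.P371W
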