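import Vale.Agent.Lib.P371W.Picone

/-!
The Dirichlet inequality on a window of the arclength.
-/

open MeasureTheory Set Filter Topology
open scoped Real

namespace Vale.Agent.Lib.P371W

/-- The data of the window argument: a positive density `A` with its derivative, and an
arclength `σ` with its speed `s`. -/
structure WinData (A A' s σ : ℝ → ℝ) : Prop where
  hA : ∀ x, HasDerivAt A (A' x) x
  hA' : Continuous A'
  hApos : ∀ x, 0 < A x
  hs : Continuous s
  hs0 : ∀ x, 0 ≤ s x
  hσ : ∀ x, HasDerivAt σ (s x) x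
  hσm : Monotone σ
  limTop : Tendsto A atTop (𝓝 0)
  limBot : Tendsto A atBot (𝓝 0)
  int1 : Integrable A
  int3 : Integrable fun x => A x ^ 3
  intE : Integrable fun x => A' x ^ 2 / A x
  intS : Integrable fun x => A x * s x ^ 2

/-- The window around `τ`. -/
def win (σ : ℝ → ℝ) (τ : ℝ) : Set ℝ := {x | |σ x - τ| < π / 4}

/-- The test function on the window. -/
noncomputable def uF (A σ : ℝ → ℝ) (τ x : ℝ) : ℝ := A x * Real.cos (2 * (σ x - τ))

/-- The derivative of the test function. -/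
noncomputable def uD (A A' s σ : ℝ → ℝ) (τ x : ℝ) : ℝ :=
  A' x * Real.cos (2 * (σ x - τ)) - 2 * A x * s x * Real.sin (2 * (σ x - τ))

namespace WinData

variable {A A' s σ : ℝ → ℝ}

theorem contA (h : WinData A A' s σ) : Continuous A :=
  continuous_iff_continuousAt.mpr fun x => (h.hA x).continuousAt

theorem contσ (h : WinData A A' s σ) : Continuous σ :=
  continuous_iff_continuousAt.mpr fun x => (h.hσ x).continuousAt

theorem hasDerivAt_uF (h : WinData A A' s σ) (τ x : ℝ) :
    HasDerivAt (uF A σ τ) (uD A A' s σ τ x) x := by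
  have h1 : HasDerivAt (fun x => 2 * (σ x - τ)) (2 * s x) x :=
    ((h.hσ x).sub_const τ).const_mul 2
  have h2 := (h.hA x).mul h1.cos
  refine h2.congr_deriv ?_
  unfold uD
  ring

theorem cont_uD (h : WinData A A' s σ) (τ : ℝ) : Continuous (uD A A' s σ τ) := by
  unfold uD
  have := h.contσ
  have hA := h.contA
  have hA' := h.hA'
  have hs := h.hs
  fun_prop

theorem cont_uF (h : WinData A A' s σ) (τ : ℝ) : Continuous (uF A σ τ) := by
  unfold uF
  have := h.contσ
  have hA := h.contA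
  fun_prop

theorem isOpen_win (h : WinData A A' s σ) (τ : ℝ) : IsOpen (win σ τ) := by
  unfold win
  have hc : Continuous fun x => |σ x - τ| := (h.contσ.sub continuous_const).abs
  exact isOpen_lt hc continuous_const

theorem measurableSet_win (h : WinData A A' s σ) (τ : ℝ) : MeasurableSet (win σ τ) :=
  (h.isOpen_win τ).measurableSet

theorem uF_sq_le (_h : WinData A A' s σ) (τ x : ℝ) : uF A σ τ x ^ 2 ≤ A x ^ 2 := by
  unfold uF
  rw [mul_pow]
  have h1 := Real.cos_sq_le_one (2 * (σ x - τ))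
  have h2 : 0 ≤ A x ^ 2 := by positivity
  nlinarith

theorem int_Au2 (h : WinData A A' s σ) (τ : ℝ) :
    Integrable fun x => A x * uF A σ τ x ^ 2 := by
  refine h.int3.mono' ?_ ?_
  · exact (h.contA.mul ((h.cont_uF τ).pow 2)).aestronglyMeasurable
  · refine Eventually.of_forall fun x => ?_
    have hpos := h.hApos x
    rw [Real.norm_of_nonneg (by positivity)]
    have := mul_le_mul_of_nonneg_left (h.uF_sq_le τ x) hpos.le
    nlinarith

theorem uD_sq_div_le (h : WinData A A' s σ) (τ x : ℝ) :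
    uD A A' s σ τ x ^ 2 / A x ≤ 2 * (A' x ^ 2 / A x) + 8 * (A x * s x ^ 2) := by
  have hpos := h.hApos x
  rw [div_le_iff₀ hpos]
  have h1 : (2 * (A' x ^ 2 / A x) + 8 * (A x * s x ^ 2)) * A x =
      2 * A' x ^ 2 + 8 * (A x * s x) ^ 2 := by
    field_simp
  rw [h1]
  unfold uD
  set c := Real.cos (2 * (σ x - τ))
  set d := Real.sin (2 * (σ x - τ))
  have hc : c ^ 2 ≤ 1 := Real.cos_sq_le_one _
  have hd : d ^ 2 ≤ 1 := Real.sin_sq_le_one _
  have h2 : (A' x * c - 2 * A x * s x * d) ^ 2 ≤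
      2 * (A' x * c) ^ 2 + 2 * (2 * A x * s x * d) ^ 2 := by
    nlinarith [sq_nonneg (A' x * c + 2 * A x * s x * d)]
  have h3 : (A' x * c) ^ 2 ≤ A' x ^ 2 := by
    rw [mul_pow]; nlinarith [sq_nonneg (A' x)]
  have h4 : (2 * A x * s x * d) ^ 2 ≤ 4 * (A x * s x) ^ 2 := by
    have : (2 * A x * s x * d) ^ 2 = 4 * (A x * s x) ^ 2 * d ^ 2 := by ring
    rw [this]
    nlinarith [sq_nonneg (A x * s x)]
  linarith

theorem int_uD (h : WinData A A' s σ) (τ : ℝ) :
    Integrable fun x => uD A A' s σ τ x ^ 2 / A x := by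
  have hdom : Integrable fun x => 2 * (A' x ^ 2 / A x) + 8 * (A x * s x ^ 2) :=
    (h.intE.const_mul 2).add (h.intS.const_mul 8)
  refine hdom.mono' ?_ ?_
  · exact (((h.cont_uD τ).pow 2).div h.contA fun x => (h.hApos x).ne').aestronglyMeasurable
  · refine Eventually.of_forall fun x => ?_
    have hpos := h.hApos x
    rw [Real.norm_of_nonneg (by positivity)]
    exact h.uD_sq_div_le τ x

/-- The endpoints of the windows, cut at distance `R`. -/
theorem ends (h : WinData A A' s σ) {τ x₀ R : ℝ} (hx₀ : x₀ ∈ win σ τ) (hR : |x₀| ≤ R) :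
    ∃ a b, a ≤ x₀ ∧ x₀ ≤ b ∧ Ioo a b ⊆ win σ τ ∧ win σ τ ∩ Icc (-R) R ⊆ Icc a b ∧
      uF A σ τ a ^ 2 + uF A σ τ b ^ 2 ≤ A (-R) ^ 2 + A R ^ 2 := by
  have hx := abs_lt.mp (show |σ x₀ - τ| < π / 4 from hx₀)
  have h1 : σ x₀ < τ + π / 4 := by linarith [hx.2]
  have h2 : τ - π / 4 < σ x₀ := by linarith [hx.1]
  have hR' := abs_le.mp hR
  obtain ⟨b, hb1, hb2, hb3, hb4, hb5⟩ := exists_right_end h.contσ h.hσm h1 hR'.2
  obtain ⟨a, ha1, ha2, ha3, ha4, ha5⟩ := exists_left_end (R := R) h.contσ h.hσm h2 hR'.1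
  refine ⟨a, b, ha2, hb1, ?_, ?_, ?_⟩
  · intro x hxI
    have h3 := hb3 x hxI.2
    have h4 := ha3 x hxI.1
    show |σ x - τ| < π / 4
    rw [abs_lt]
    constructor <;> linarith
  · intro x hx
    have hx1 := abs_lt.mp (show |σ x - τ| < π / 4 from hx.1)
    exact ⟨ha4 x hx.2.1 (by linarith [hx1.1]), hb4 x hx.2.2 (by linarith [hx1.2])⟩
  · have hua : uF A σ τ a ^ 2 ≤ A (-R) ^ 2 := by
      rcases ha5 with h5 | h5
      · rw [h5]; exact h.uF_sq_le τ _
      · have : uF A σ τ a = 0 := by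
          unfold uF
          rw [h5]
          have : 2 * (τ - π / 4 - τ) = -(π / 2) := by ring
          rw [this, Real.cos_neg, Real.cos_pi_div_two, mul_zero]
        rw [this, zero_pow two_ne_zero]
        exact sq_nonneg _
    have hub : uF A σ τ b ^ 2 ≤ A R ^ 2 := by
      rcases hb5 with h5 | h5
      · rw [h5]; exact h.uF_sq_le τ _
      · have : uF A σ τ b = 0 := by
          unfold uF
          rw [h5]
          have : 2 * (τ + π / 4 - τ) = π / 2 := by ring
          rw [this, Real.cos_pi_div_two, mul_zero]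
        rw [this, zero_pow two_ne_zero]
        exact sq_nonneg _
    linarith

/-- The inequality on the window for a fixed small `δ`, before multiplying out. -/
theorem window_delta (h : WinData A A' s σ) (τ : ℝ) {δ : ℝ} (hδ : 0 < δ) (hδ' : δ < π / 2)
    (hne : (win σ τ).Nonempty) :
    ((π - 2 * δ) / ∫ x in win σ τ, A x) ^ 2 * ∫ x in win σ τ, A x * uF A σ τ x ^ 2 ≤
      ∫ x in win σ τ, uD A A' s σ τ x ^ 2 / A x := by
  obtain ⟨x₀, hx₀⟩ := hne
  have hpi := Real.pi_pos
  have hS := h.measurableSet_win τ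
  set M := ∫ x in win σ τ, A x with hM
  have hMpos : 0 < M := by
    rw [hM, setIntegral_pos_iff_support_of_nonneg_ae]
    · have : Function.support A = univ := by
        ext x; simp [(h.hApos x).ne']
      rw [this, univ_inter]
      exact (h.isOpen_win τ).measure_pos _ ⟨x₀, hx₀⟩
    · exact Eventually.of_forall fun x => (h.hApos x).le
    · exact h.int1.integrableOn
  set μ := (π - 2 * δ) / M with hμ
  have hμpos : 0 < μ := div_pos (by linarith) hMpos
  have hu2 := h.int_Au2 τ
  have hud := h.int_uD τ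
  set g : ℝ → ℝ := (win σ τ).indicator fun x => A x * uF A σ τ x ^ 2 with hg
  have hgi : Integrable g := hu2.indicator hS
  have hsin : 0 < Real.sin δ := Real.sin_pos_of_pos_of_lt_pi hδ (by linarith)
  set K := μ * (Real.cos δ / Real.sin δ) with hK
  have hKnn : 0 ≤ K := by
    have : 0 ≤ Real.cos δ := Real.cos_nonneg_of_mem_Icc ⟨by linarith, by linarith⟩
    positivity
  have key : ∀ R, |x₀| ≤ R → μ ^ 2 * (∫ x in (-R)..R, g x) ≤
      (∫ x in win σ τ, uD A A' s σ τ x ^ 2 / A x) + K * (A (-R) ^ 2 + A R ^ 2) := by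
    intro R hR
    obtain ⟨a, b, ha, hb, hsub, hsub2, hend⟩ := h.ends hx₀ hR
    have hab : a ≤ b := ha.trans hb
    have hRnn : -R ≤ R := by linarith [abs_nonneg x₀, hR]
    have hAab : (∫ x in a..b, A x) ≤ M := by
      rw [intervalIntegral.integral_of_le hab, integral_Ioc_eq_integral_Ioo]
      exact setIntegral_mono_set h.int1.integrableOn
        (Eventually.of_forall fun x => (h.hApos x).le) (LE.le.eventuallyLE hsub)
    have hYb : δ + μ * ∫ x in a..b, A x ≤ π - δ := by
      have h1 : μ * ∫ x in a..b, A x ≤ μ * M := mul_le_mul_of_nonneg_left hAab hμpos.le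
      have h2 : μ * M = π - 2 * δ := by rw [hμ]; field_simp
      linarith
    have hpic := picone_interval h.contA h.hApos (h.hasDerivAt_uF τ) (h.cont_uD τ) hab
      hμpos.le hδ hδ' hYb
    have h1 : (∫ x in a..b, uD A A' s σ τ x ^ 2 / A x) ≤
        ∫ x in win σ τ, uD A A' s σ τ x ^ 2 / A x := by
      rw [intervalIntegral.integral_of_le hab, integral_Ioc_eq_integral_Ioo]
      refine setIntegral_mono_set hud.integrableOn
        (Eventually.of_forall fun x => ?_) (LE.le.eventuallyLE hsub)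
      have := h.hApos x
      exact div_nonneg (sq_nonneg _) this.le
    have h2 : (∫ x in (-R)..R, g x) ≤ ∫ x in a..b, A x * uF A σ τ x ^ 2 := by
      rw [intervalIntegral.integral_of_le hRnn, intervalIntegral.integral_of_le hab, hg,
        setIntegral_indicator hS, ← integral_Icc_eq_integral_Ioc (x := a)]
      refine setIntegral_mono_set hu2.integrableOn
        (Eventually.of_forall fun x => ?_) (LE.le.eventuallyLE ?_)
      · have := h.hApos x
        exact mul_nonneg this.le (sq_nonneg _)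
      · intro x hx
        exact hsub2 ⟨hx.2, ⟨hx.1.1.le, hx.1.2⟩⟩
    have h3 : μ ^ 2 * (∫ x in (-R)..R, g x) ≤ μ ^ 2 * ∫ x in a..b, A x * uF A σ τ x ^ 2 :=
      mul_le_mul_of_nonneg_left h2 (by positivity)
    have h4 : K * (uF A σ τ a ^ 2 + uF A σ τ b ^ 2) ≤ K * (A (-R) ^ 2 + A R ^ 2) :=
      mul_le_mul_of_nonneg_left hend hKnn
    linarith
  have hlim1 : Tendsto (fun R => μ ^ 2 * ∫ x in (-R)..R, g x) atTop
      (𝓝 (μ ^ 2 * ∫ x, g x)) :=
    (intervalIntegral_tendsto_integral hgi tendsto_neg_atTop_atBot tendsto_id).const_mul _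
  have hlim2 : Tendsto (fun R => (∫ x in win σ τ, uD A A' s σ τ x ^ 2 / A x) +
      K * (A (-R) ^ 2 + A R ^ 2)) atTop
      (𝓝 ((∫ x in win σ τ, uD A A' s σ τ x ^ 2 / A x) + K * (0 ^ 2 + 0 ^ 2))) := by
    refine tendsto_const_nhds.add (Tendsto.const_mul _ ?_)
    refine Tendsto.add (Tendsto.pow ?_ 2) (Tendsto.pow h.limTop 2)
    exact h.limBot.comp tendsto_neg_atTop_atBot
  have hfin := le_of_tendsto_of_tendsto hlim1 hlim2
    ((eventually_ge_atTop |x₀|).mono fun R hR => key R hR)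
  have h5 : (∫ x, g x) = ∫ x in win σ τ, A x * uF A σ τ x ^ 2 := integral_indicator hS
  rw [h5] at hfin
  simpa using hfin

/-- The Dirichlet inequality on a window. -/
theorem window_ineq (h : WinData A A' s σ) (τ : ℝ) :
    π ^ 2 * (∫ x in win σ τ, A x * uF A σ τ x ^ 2) ≤
      (∫ x in win σ τ, A x) ^ 2 * ∫ x in win σ τ, uD A A' s σ τ x ^ 2 / A x := by
  rcases (win σ τ).eq_empty_or_nonempty with hemp | hne
  · simp [hemp]
  have hpi := Real.pi_pos
  set X := ∫ x in win σ τ, A x * uF A σ τ x ^ 2 with hX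
  set Y := ∫ x in win σ τ, uD A A' s σ τ x ^ 2 / A x with hY
  set M := ∫ x in win σ τ, A x with hM
  have hMpos : 0 < M := by
    obtain ⟨x₀, hx₀⟩ := hne
    rw [hM, setIntegral_pos_iff_support_of_nonneg_ae]
    · have : Function.support A = univ := by
        ext x; simp [(h.hApos x).ne']
      rw [this, univ_inter]
      exact (h.isOpen_win τ).measure_pos _ ⟨x₀, hx₀⟩
    · exact Eventually.of_forall fun x => (h.hApos x).le
    · exact h.int1.integrableOn
  have key : ∀ δ : ℝ, 0 < δ → δ < π / 2 → (π - 2 * δ) ^ 2 * X ≤ M ^ 2 * Y := by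
    intro δ h1 h2
    have := h.window_delta τ h1 h2 hne
    rw [← hX, ← hM, ← hY, div_pow] at this
    have h3 : 0 < M ^ 2 := by positivity
    calc (π - 2 * δ) ^ 2 * X = M ^ 2 * ((π - 2 * δ) ^ 2 / M ^ 2 * X) := by field_simp
      _ ≤ M ^ 2 * Y := mul_le_mul_of_nonneg_left this h3.le
  have hlim : Tendsto (fun δ : ℝ => (π - 2 * δ) ^ 2 * X) (𝓝[>] 0) (𝓝 (π ^ 2 * X)) := by
    have hc : Continuous fun δ : ℝ => (π - 2 * δ) ^ 2 * X := by fun_prop
    have := hc.tendsto 0
    simp only [mul_zero, sub_zero] at this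
    exact this.mono_left nhdsWithin_le_nhds
  have hev : ∀ᶠ δ in 𝓝[>] (0 : ℝ), (π - 2 * δ) ^ 2 * X ≤ M ^ 2 * Y := by
    have h1 : Ioo (0 : ℝ) (π / 2) ∈ 𝓝[>] (0 : ℝ) := Ioo_mem_nhdsGT (by positivity)
    filter_upwards [h1] with δ hδ
    exact key δ hδ.1 hδ.2
  exact le_of_tendsto hlim hev

end WinData

end Vale.Agent.Lib.P371W
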